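import Vale.Agent.P159.T1.H731.Tile
import Vale.Agent.P159.T1.D.Stmts

/-!
The uniform upper bound `StmtU` from the bound of one block.
-/

set_option linter.all false

open MeasureTheory Filter Topology

namespace Vale.Agent.P159.T1.H731

open Vale.Agent.P159 Vale.Agent.P159.H950 Vale.Agent.P159.UJ
open Vale.Agent.P159.H353 (wI wI_nonneg)
open Vale.Agent.P159.T1.D

/-! ### the lattice of the gradients -/

/-- the gradients of the heights which vanish off `U` -/
def GU (U : Finset Z2) : AddSubgroup (↥(bd U) → ℤ) where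
  carrier := {n | ∃ h : Ht U, ∀ e : ↥(bd U), n e = dh h.1 e}
  zero_mem' := ⟨⟨0, fun _ _ => rfl⟩, fun e => by simp [dh]⟩
  add_mem' := by
    rintro a b ⟨h, ha⟩ ⟨k, hb⟩
    refine ⟨⟨h.1 + k.1, fun f hf => by rw [Pi.add_apply, h.2 f hf, k.2 f hf, add_zero]⟩, fun e => ?_⟩
    rw [Pi.add_apply, ha, hb]
    unfold dh
    simp only [Pi.add_apply]
    ring
  neg_mem' := by
    rintro a ⟨h, ha⟩
    refine ⟨⟨-h.1, fun f hf => by rw [Pi.neg_apply, h.2 f hf, neg_zero]⟩, fun e => ?_⟩
    rw [Pi.neg_apply, ha]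
    unfold dh
    simp only [Pi.neg_apply]
    ring

lemma mem_bd {U : Finset Z2} {e : Bnd} : e ∈ bd U ↔ lf e ∈ U ∨ rt e ∈ U := by
  obtain ⟨⟨a, b⟩, d⟩ := e
  unfold bd
  rw [Finset.mem_biUnion]
  constructor
  · rintro ⟨f, hf, hs⟩
    obtain ⟨f1, f2⟩ := f
    unfold sides at hs
    simp only [Finset.mem_insert, Finset.mem_singleton, Prod.mk.injEq] at hs
    rcases hs with ⟨⟨rfl, rfl⟩, rfl⟩ | ⟨⟨rfl, rfl⟩, rfl⟩ | ⟨⟨rfl, rfl⟩, rfl⟩ | ⟨⟨rfl, rfl⟩, rfl⟩
    · exact Or.inl (by simpa [lf] using hf)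
    · exact Or.inr (by simpa [rt] using hf)
    · exact Or.inr (by simpa [rt] using hf)
    · exact Or.inl (by simpa [lf] using hf)
  · rintro (h | h)
    · cases d
      · exact ⟨(a, b), by simpa [lf] using h, by simp [sides]⟩
      · exact ⟨(a - 1, b), by simpa [lf] using h, by simp [sides]⟩
    · cases d
      · exact ⟨(a, b - 1), by simpa [rt] using h, by simp [sides]⟩
      · exact ⟨(a, b), by simpa [rt] using h, by simp [sides]⟩

lemma dh_off {U : Finset Z2} (h : Ht U) {e : Bnd} (he : e ∉ bd U) : dh h.1 e = 0 := by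
  rw [mem_bd] at he
  push Not at he
  unfold dh
  rw [h.2 _ he.1, h.2 _ he.2, sub_zero]

/-- far to the left there are no faces of `U` -/
lemma exists_left (U : Finset Z2) (f : Z2) : ∃ n : ℕ, ((f.1 - n, f.2) : Z2) ∉ U := by
  classical
  by_contra h
  push Not at h
  have hinj : Function.Injective fun n : ℕ => ((f.1 - n, f.2) : Z2) := by
    intro a b hab
    have := (Prod.mk.inj hab).1
    omega
  have h1 : (Set.range fun n : ℕ => ((f.1 - n, f.2) : Z2)) ⊆ (U : Set Z2) := by
    rintro _ ⟨n, rfl⟩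
    exact h n
  exact (Set.infinite_range_of_injective hinj) (U.finite_toSet.subset h1)

/-- a property which is transported from the left holds everywhere -/
lemma from_left {U : Finset Z2} {p : Z2 → Prop} (h0 : ∀ f, f ∉ U → p f)
    (h1 : ∀ f : Z2, p (f.1 - 1, f.2) → p f) (f : Z2) : p f := by
  obtain ⟨n, hn⟩ := exists_left U f
  have h2 : ∀ k : ℕ, k ≤ n → p (f.1 - ((n - k : ℕ) : ℤ), f.2) := by
    intro k
    induction k with
    | zero => intro _; exact h0 _ (by simpa using hn)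
    | succ k ih =>
      intro hk
      have h3 := ih (by omega)
      apply h1
      have e : ((f.1 - ((n - (k + 1) : ℕ) : ℤ), f.2) : Z2).1 - 1 = f.1 - ((n - k : ℕ) : ℤ) := by
        simp only
        omega
      rw [e]
      exact h3
  have := h2 n le_rfl
  simpa using this

lemma GU_half (U : Finset Z2) (n : ↥(bd U) → ℤ) (hn : n + n ∈ GU U) : n ∈ GU U := by
  obtain ⟨h, hh⟩ := hn
  have hpar : ∀ f, 2 ∣ h.1 f := by
    refine from_left (U := U) (p := fun f => 2 ∣ h.1 f) ?_ ?_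
    · intro f hf
      rw [h.2 f hf]
      exact dvd_zero 2
    · intro f hf
      have h1 : (2 : ℤ) ∣ dh h.1 (f, true) := by
        by_cases he : ((f, true) : Bnd) ∈ bd U
        · have := hh ⟨_, he⟩
          rw [← this, Pi.add_apply]
          exact ⟨n ⟨_, he⟩, by ring⟩
        · rw [dh_off h he]
          exact dvd_zero 2
      have e1 : h.1 f = h.1 (f.1 - 1, f.2) - dh h.1 (f, true) := by
        unfold dh lf rt
        simp
      rw [e1]
      exact dvd_sub hf h1
  refine ⟨⟨fun f => h.1 f / 2, fun f hf => by simp only; rw [h.2 f hf]; rfl⟩, fun e => ?_⟩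
  have h1 := hh e
  rw [Pi.add_apply] at h1
  obtain ⟨a, ha⟩ := hpar (lf e)
  obtain ⟨c, hc⟩ := hpar (rt e)
  unfold dh at h1 ⊢
  simp only
  rw [ha, hc] at h1 ⊢
  rw [Int.mul_ediv_cancel_left _ (by norm_num), Int.mul_ediv_cancel_left _ (by norm_num)]
  linarith

lemma dh_inj {U : Finset Z2} {h k : Ht U} (hk : ∀ e : ↥(bd U), dh h.1 e = dh k.1 e) : h = k := by
  apply Subtype.ext
  funext f
  revert f
  refine from_left (U := U) (p := fun f => h.1 f = k.1 f) ?_ ?_
  · intro f hf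
    rw [h.2 f hf, k.2 f hf]
  · intro f hf
    have h1 : dh h.1 (f, true) = dh k.1 (f, true) := by
      by_cases he : ((f, true) : Bnd) ∈ bd U
      · exact hk ⟨_, he⟩
      · rw [dh_off h he, dh_off k he]
    unfold dh lf rt at h1
    simp only [if_true] at h1
    linarith

/-- the gradients have no divergence -/
lemma GU_le (U : Finset Z2) :
    GU U ≤ Gf (fun e : ↥(bd U) => bs e) (fun e : ↥(bd U) => bt e) := by
  classical
  rintro n ⟨h, hh⟩
  rw [mem_Gf]
  intro w
  unfold dv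
  obtain ⟨w1, w2⟩ := w
  set f : Bnd → ℤ := fun e => dh h.1 e * ((if bs e = (w1, w2) then 1 else 0) -
    (if bt e = (w1, w2) then 1 else 0)) with hf
  have e1 : ∑ e : ↥(bd U), n e * ((if bs e = (w1, w2) then 1 else 0) -
      (if bt e = (w1, w2) then 1 else 0)) = ∑ e ∈ bd U, f e := by
    rw [← Finset.sum_coe_sort (bd U) f]
    refine Finset.sum_congr rfl fun e _ => ?_
    rw [hf, hh e]
  set S4 : Finset Bnd := {((w1, w2), false), ((w1, w2), true), ((w1 - 1, w2), false),
    ((w1, w2 - 1), true)} with hS4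
  have e2 : ∑ e ∈ bd U, f e = ∑ e ∈ bd U ∪ S4, f e := by
    refine Finset.sum_subset Finset.subset_union_left fun e _ he => ?_
    simp only [hf]
    rw [dh_off h he, zero_mul]
  have e3 : ∑ e ∈ S4, f e = ∑ e ∈ bd U ∪ S4, f e := by
    refine Finset.sum_subset Finset.subset_union_right fun e _ he => ?_
    obtain ⟨⟨a, b⟩, d⟩ := e
    simp only [hf]
    have h1 : ¬ bs ((a, b), d) = (w1, w2) := by
      intro h2
      apply he
      unfold bs at h2
      simp only [Prod.mk.injEq] at h2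
      obtain ⟨rfl, rfl⟩ := h2
      cases d <;> simp [hS4]
    have h2 : ¬ bt ((a, b), d) = (w1, w2) := by
      intro h2
      apply he
      unfold bt at h2
      cases d
      · simp only [Bool.false_eq_true, if_false, Prod.mk.injEq] at h2
        obtain ⟨rfl, rfl⟩ := h2
        simp [hS4]
      · simp only [if_true, Prod.mk.injEq] at h2
        obtain ⟨rfl, rfl⟩ := h2
        simp [hS4]
    rw [if_neg h1, if_neg h2, sub_zero, mul_zero]
  rw [e1, e2, ← e3, hS4]
  rw [Finset.sum_insert (by simp; omega), Finset.sum_insert (by simp; omega), Finset.sum_insert (by simp),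
    Finset.sum_singleton]
  simp only [hf]
  unfold dh bs bt lf rt
  simp only [Bool.false_eq_true, if_false, if_true, Prod.mk.injEq, sub_add_cancel, and_self,
    add_eq_left, one_ne_zero, and_true, and_false, sub_eq_self, false_and, add_sub_cancel_right]
  ring

/-- the partition functions as sums over a coset -/
lemma ZB_eq (b : ℝ) (U : Finset Z2) (m : Bnd → ℤ) (B : Bnd → ℝ) :
    ZB b U m B = SG (fun _ : ↥(bd U) => b) (GU U) (fun e => B e) (fun e => m e) := by
  classical
  set i : Ht U → (↥(bd U) → ℤ) := fun h e => dh h.1 e + m e with hi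
  have hinj : Function.Injective i := by
    intro h k hk
    apply dh_inj
    intro e
    have := congrFun hk e
    simp only [hi] at this
    linarith
  unfold SG
  rw [← hinj.tsum_eq]
  · unfold ZB
    refine tsum_congr fun h => ?_
    have h1 : i h - (fun e : ↥(bd U) => m e) ∈ GU U := ⟨h, fun e => by simp [hi]⟩
    rw [if_pos h1]
    unfold wt D.wt pr
    rw [← Finset.prod_coe_sort (bd U), ← Finset.sum_coe_sort (bd U)]
  · intro n hn
    rw [Function.mem_support] at hn
    by_contra h1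
    apply hn
    rw [if_neg]
    rintro ⟨h, hh⟩
    apply h1
    refine ⟨h, ?_⟩
    funext e
    have := hh e
    simp only [hi]
    rw [Pi.sub_apply] at this
    linarith

lemma Z_eq (b : ℝ) (U : Finset Z2) :
    D.Z b U = SG (fun _ : ↥(bd U) => b) (GU U) 0 0 := by
  have h := ZB_eq b U 0 0
  have e1 : (fun e : ↥(bd U) => (0 : Bnd → ℝ) e) = 0 := rfl
  have e2 : (fun e : ↥(bd U) => (0 : Bnd → ℤ) e) = 0 := rfl
  rw [e1, e2] at h
  rw [← h]
  unfold D.Z ZB
  refine tsum_congr fun h => ?_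
  unfold pr
  simp

/-! ### sums over half-bonds -/

/-- the bond of a half-bond -/
def bond (c : ℤ × ℤ) (t : HT) : Bnd := (hu c t, t.1)

/-- the two cells of a bond -/
def cel (e : Bnd) (s : Bool) : ℤ × ℤ :=
  if s then (if e.2 then (e.1.1 - 1, e.1.2) else (e.1.1, e.1.2 - 1)) else e.1

lemma bond_cel (e : Bnd) (s : Bool) : bond (cel e s) (e.2, s) = e := by
  obtain ⟨⟨a, b⟩, d⟩ := e
  cases d <;> cases s <;> simp [bond, cel, hu]

lemma cel_bond (c : ℤ × ℤ) (t : HT) : cel (bond c t) t.2 = c := by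
  obtain ⟨a, b⟩ := c
  obtain ⟨d, s⟩ := t
  cases d <;> cases s <;> simp [bond, cel, hu]

lemma bs_bond (c : ℤ × ℤ) (t : HT) : bs (bond c t) = hu c t := rfl

lemma bt_bond (c : ℤ × ℤ) (t : HT) : bt (bond c t) = hv c t := by
  obtain ⟨d, s⟩ := t
  unfold bt bond hv
  cases d <;> ext <;> simp

/-- the sum over the half-bonds of a region -/
lemma sumR {M : Type*} [AddCommMonoid M] {R : Finset (ℤ × ℤ)} {S : Finset Bnd} {g : Bnd → M}
    (hg : ∀ e, e ∉ S → g e = 0) (hc : ∀ e ∈ S, ∀ s, cel e s ∈ R) :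
    ∑ c ∈ R, ∑ t : HT, g (bond c t) = ∑ e ∈ S, ∑ _s : Bool, g e := by
  classical
  rw [← Finset.sum_product', ← Finset.sum_product']
  have h1 : ∑ x ∈ R ×ˢ (Finset.univ : Finset HT), g (bond x.1 x.2) =
      ∑ x ∈ (R ×ˢ (Finset.univ : Finset HT)).filter (fun x => bond x.1 x.2 ∈ S),
        g (bond x.1 x.2) := by
    rw [Finset.sum_filter]
    refine Finset.sum_congr rfl fun x _ => ?_
    split_ifs with h
    · rfl
    · exact hg _ h
  rw [h1]
  refine Finset.sum_nbij' (fun x => (bond x.1 x.2, x.2.2)) (fun x => (cel x.1 x.2, (x.1.2, x.2)))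
    ?_ ?_ ?_ ?_ ?_
  · intro x hx
    rw [Finset.mem_filter] at hx
    rw [Finset.mem_product]
    exact ⟨hx.2, Finset.mem_univ _⟩
  · intro x hx
    rw [Finset.mem_product] at hx
    rw [Finset.mem_filter, Finset.mem_product]
    refine ⟨⟨hc _ hx.1 _, Finset.mem_univ _⟩, ?_⟩
    rw [bond_cel]
    exact hx.1
  · intro x _
    simp only
    rw [cel_bond]
    rfl
  · intro x _
    simp only
    rw [bond_cel]
  · intro x _
    rfl

/-- sums over the blocks -/
lemma sum_blocks {M : Type*} [AddCommMonoid M] {l : ℕ} (hl : 1 ≤ l) (K : Finset (ℤ × ℤ))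
    (G : ℤ × ℤ → HT → M) :
    ∑ k ∈ K, ∑ e : KR (blk (pk l k) l), G e.1 e.2 =
      ∑ c ∈ K.biUnion (fun k => blk (pk l k) l), ∑ t : HT, G c t := by
  classical
  rw [Finset.sum_biUnion (fun j _ k _ hjk => blk_disj hl hjk)]
  refine Finset.sum_congr rfl fun k _ => ?_
  rw [Fintype.sum_prod_type, ← Finset.sum_coe_sort (blk (pk l k) l) (fun c => ∑ t : HT, G c t)]

/-- the blocks cover -/
lemma cover {l : ℕ} (hl : 1 ≤ l) (S : Finset Bnd) : ∃ K : Finset (ℤ × ℤ),
    ∀ e ∈ S, ∀ s, cel e s ∈ K.biUnion (fun k => blk (pk l k) l) := by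
  classical
  refine ⟨(S ×ˢ (Finset.univ : Finset Bool)).image (fun x => ((cel x.1 x.2).1 / (l : ℤ),
    (cel x.1 x.2).2 / (l : ℤ))), fun e he s => ?_⟩
  rw [Finset.mem_biUnion]
  refine ⟨((cel e s).1 / (l : ℤ), (cel e s).2 / (l : ℤ)), Finset.mem_image.2
    ⟨(e, s), Finset.mem_product.2 ⟨he, Finset.mem_univ _⟩, rfl⟩, ?_⟩
  rw [mem_blk]
  unfold pk
  simp only
  have hl' : (0 : ℤ) < l := by omega
  have a1 := Int.mul_ediv_self_le (x := (cel e s).1) (k := (l : ℤ)) hl'.ne'
  have a2 := Int.lt_mul_ediv_self_add (x := (cel e s).1) hl'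
  have b1 := Int.mul_ediv_self_le (x := (cel e s).2) (k := (l : ℤ)) hl'.ne'
  have b2 := Int.lt_mul_ediv_self_add (x := (cel e s).2) hl'
  exact ⟨a1, a2, b1, b2⟩

/-- oscillation in one block -/
lemma osc_row {l : ℕ} {p : ℤ × ℤ} (e : KR (blk p l)) (B : Bnd → ℝ) :
    ∑ e' : KR (blk p l), (if e.2.1 = e'.2.1 then (B (bond e.1 e.2) - B (bond e'.1 e'.2)) ^ 2
      else 0) ≤
    2 * ∑ u ∈ Finset.Icc (-(l : ℤ), -(l : ℤ)) ((l : ℤ), (l : ℤ)),
      (B (sh u (bond e.1 e.2)) - B (bond e.1 e.2)) ^ 2 := by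
  classical
  set f := bond e.1 e.2 with hf
  set I := Finset.Icc (-(l : ℤ), -(l : ℤ)) ((l : ℤ), (l : ℤ)) with hI
  set i : KR (blk p l) → (ℤ × ℤ) × Bool := fun e' => (hu e'.1 e'.2 - hu e.1 e.2, e'.2.2) with hi
  rw [← Finset.sum_filter]
  have h1 : ∀ e' ∈ Finset.univ.filter (fun e' : KR (blk p l) => e.2.1 = e'.2.1),
      (B f - B (bond e'.1 e'.2)) ^ 2 = (B (sh (i e').1 f) - B f) ^ 2 := by
    intro e' he'
    have h2 := (Finset.mem_filter.1 he').2
    have h3 : sh (i e').1 f = bond e'.1 e'.2 := by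
      unfold sh bond
      simp only [hi, hf, bond]
      rw [h2]
      simp
    rw [h3]
    ring
  rw [Finset.sum_congr rfl h1]
  have hinj : Set.InjOn i (Finset.univ.filter (fun e' : KR (blk p l) => e.2.1 = e'.2.1) :
      Finset (KR (blk p l))) := by
    intro a ha c hc hac
    have ha' := (Finset.mem_filter.1 ha).2
    have hc' := (Finset.mem_filter.1 hc).2
    simp only [hi, Prod.mk.injEq] at hac
    have h4 : hu a.1 a.2 = hu c.1 c.2 := sub_left_injective hac.1
    have h5 : a.2 = c.2 := Prod.ext (ha'.symm.trans hc') hac.2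
    have h6 : (a.1 : ℤ × ℤ) = c.1 := by
      rw [← cel_bond a.1 a.2, ← cel_bond c.1 c.2]
      unfold bond
      rw [h4, h5]
    exact Prod.ext (Subtype.ext h6) h5
  have h7 := Finset.sum_image (f := fun q : (ℤ × ℤ) × Bool => (B (sh q.1 f) - B f) ^ 2) hinj
  rw [← h7]
  have hsub : (Finset.univ.filter (fun e' : KR (blk p l) => e.2.1 = e'.2.1)).image i ⊆
      I ×ˢ (Finset.univ : Finset Bool) := by
    intro q hq
    obtain ⟨e', _, rfl⟩ := Finset.mem_image.1 hq
    rw [Finset.mem_product]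
    refine ⟨?_, Finset.mem_univ _⟩
    rw [hI, Finset.mem_Icc]
    have g1 := mem_blk.1 e.1.2
    have g2 := mem_blk.1 e'.1.2
    simp only [hi]
    obtain ⟨⟨⟨c1, c2⟩, hc⟩, ⟨t1, t2⟩⟩ := e
    obtain ⟨⟨⟨d1, d2⟩, hd⟩, ⟨r1, r2⟩⟩ := e'
    simp only at g1 g2
    constructor
    · rw [Prod.le_def]
      unfold hu
      simp only [Prod.fst_sub, Prod.snd_sub]
      constructor
      · split_ifs <;> omega
      · split_ifs <;> omega
    · rw [Prod.le_def]
      unfold hu
      simp only [Prod.fst_sub, Prod.snd_sub]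
      constructor
      · split_ifs <;> omega
      · split_ifs <;> omega
  refine (Finset.sum_le_sum_of_subset_of_nonneg hsub fun _ _ _ => sq_nonneg _).trans ?_
  rw [Finset.sum_product]
  simp only [Fintype.sum_bool]
  rw [Finset.sum_add_distrib]
  linarith

/-- all pairs of one block -/
lemma osc_block {l : ℕ} {p : ℤ × ℤ} {S : Finset Bnd} {B : Bnd → ℝ} (hB : ∀ e, e ∉ S → B e = 0) :
    ∑ e : KR (blk p l), ∑ e' : KR (blk p l), (if e.2.1 = e'.2.1 then
      (B (bond e.1 e.2) - B (bond e'.1 e'.2)) ^ 2 else 0) ≤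
    4 * ∑ e : KR (blk p l), (if bond e.1 e.2 ∈ S then
      ∑ u ∈ Finset.Icc (-(l : ℤ), -(l : ℤ)) ((l : ℤ), (l : ℤ)),
      (B (sh u (bond e.1 e.2)) - B (bond e.1 e.2)) ^ 2 else 0) := by
  classical
  set φ : KR (blk p l) → KR (blk p l) → ℝ := fun e e' => if e.2.1 = e'.2.1 then
      (B (bond e.1 e.2) - B (bond e'.1 e'.2)) ^ 2 else 0 with hφ
  have hsymm : ∀ e e', φ e e' = φ e' e := by
    intro e e'
    simp only [hφ]
    by_cases h : e.2.1 = e'.2.1
    · rw [if_pos h, if_pos h.symm]; ring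
    · rw [if_neg h, if_neg (fun h1 => h h1.symm)]
  have h0 : ∀ e e', 0 ≤ φ e e' := by
    intro e e'
    simp only [hφ]
    split_ifs
    · exact sq_nonneg _
    · exact le_rfl
  have h1 : ∀ e e', φ e e' ≤ (if bond e.1 e.2 ∈ S then φ e e' else 0) +
      (if bond e'.1 e'.2 ∈ S then φ e' e else 0) := by
    intro e e'
    by_cases g1 : bond e.1 e.2 ∈ S
    · rw [if_pos g1]
      have : 0 ≤ (if bond e'.1 e'.2 ∈ S then φ e' e else 0) := by
        split_ifs
        · exact h0 _ _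
        · exact le_rfl
      linarith
    · rw [if_neg g1, zero_add]
      by_cases g2 : bond e'.1 e'.2 ∈ S
      · rw [if_pos g2, hsymm]
      · rw [if_neg g2]
        simp only [hφ]
        rw [hB _ g1, hB _ g2]
        split_ifs <;> simp
  have h2 : ∑ e, ∑ e', φ e e' ≤ 2 * ∑ e, (if bond e.1 e.2 ∈ S then ∑ e', φ e e' else 0) := by
    calc ∑ e, ∑ e', φ e e' ≤ ∑ e, ∑ e', ((if bond e.1 e.2 ∈ S then φ e e' else 0) +
          (if bond e'.1 e'.2 ∈ S then φ e' e else 0)) :=
          Finset.sum_le_sum fun e _ => Finset.sum_le_sum fun e' _ => h1 e e'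
      _ = ∑ e, ∑ e', (if bond e.1 e.2 ∈ S then φ e e' else 0) +
          ∑ e, ∑ e', (if bond e'.1 e'.2 ∈ S then φ e' e else 0) := by
          simp only [Finset.sum_add_distrib]
      _ = ∑ e, ∑ e', (if bond e.1 e.2 ∈ S then φ e e' else 0) +
          ∑ e, ∑ e', (if bond e.1 e.2 ∈ S then φ e e' else 0) := by
          congr 1
          exact Finset.sum_comm
      _ = 2 * ∑ e, ∑ e', (if bond e.1 e.2 ∈ S then φ e e' else 0) := by ring
      _ = 2 * ∑ e, (if bond e.1 e.2 ∈ S then ∑ e', φ e e' else 0) := by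
          congr 1
          refine Finset.sum_congr rfl fun e _ => ?_
          split_ifs
          · rfl
          · simp
  refine h2.trans ?_
  have h3 : ∑ e, (if bond e.1 e.2 ∈ S then ∑ e', φ e e' else 0) ≤
      ∑ e : KR (blk p l), 2 * (if bond e.1 e.2 ∈ S then
      ∑ u ∈ Finset.Icc (-(l : ℤ), -(l : ℤ)) ((l : ℤ), (l : ℤ)),
      (B (sh u (bond e.1 e.2)) - B (bond e.1 e.2)) ^ 2 else 0) := by
    refine Finset.sum_le_sum fun e _ => ?_
    split_ifs
    · exact osc_row e B
    · simp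
  rw [← Finset.mul_sum] at h3
  linarith

theorem stmtU (hBF : BlockFac) : StmtU := by
  classical
  intro b ε hb hε
  obtain ⟨l, η, C, hl, hη, hC, hbf⟩ := hBF b ε hb hε
  refine ⟨l, η, 8 * C + 1, hη, by linarith, ?_⟩
  intro U S m B hBS hBη
  have hb0 : 0 ≤ b := hb.le
  -- the cover
  obtain ⟨K, hK⟩ := cover hl (bd U ∪ S)
  set R := K.biUnion (fun k => blk (pk l k) l) with hR
  set J : ℤ × ℤ → HT → ℝ := fun c t => if bond c t ∈ bd U then b / 2 else 0 with hJ
  have hJ' : ∀ c t, 0 ≤ J c t ∧ J c t ≤ b / 2 := by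
    intro c t
    simp only [hJ]
    split_ifs
    · exact ⟨by linarith, le_rfl⟩
    · exact ⟨le_rfl, by linarith⟩
  set y : ℤ × ℤ → HT → ℝ := fun c t => B (bond c t) with hy
  set u : ↥(bd U) → ℤ × ℤ := fun e => bs e with hu
  set v : ↥(bd U) → ℤ × ℤ := fun e => bt e with hv
  set mm : ↥(bd U) → ℤ := fun e => m e with hmm
  obtain ⟨F, hFu, hFv⟩ : ∃ F : Finset (ℤ × ℤ), (∀ e, u e ∈ F) ∧ ∀ e, v e ∈ F :=
    ⟨Finset.univ.image u ∪ Finset.univ.image v,
      fun e => Finset.mem_union_left _ (Finset.mem_image_of_mem _ (Finset.mem_univ e)),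
      fun e => Finset.mem_union_right _ (Finset.mem_image_of_mem _ (Finset.mem_univ e))⟩
  have hcovU : ∀ e ∈ bd U, ∀ s, cel e s ∈ R := fun e he => hK e (Finset.mem_union_left _ he)
  have hcovS : ∀ e ∈ S, ∀ s, cel e s ∈ R := fun e he => hK e (Finset.mem_union_right _ he)
  -- energies
  have hen : ∀ (w : Bnd → ℂ) (x : Ginf), ∑ k ∈ K, ∑ e : KR (blk (pk l k) l),
      (J e.1 e.2 : ℂ) * (chU e.1 e.2).C (w (bond e.1 e.2)) x =
      ∑ e : ↥(bd U), (b : ℂ) * (grad (u e) (v e)).C (w e) x := by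
    intro w x
    rw [sum_blocks hl K (fun c t => (J c t : ℂ) * (chU c t).C (w (bond c t)) x)]
    set g : Bnd → ℂ := fun e => ((if e ∈ bd U then b / 2 else 0 : ℝ) : ℂ) *
      (grad (bs e) (bt e)).C (w e) x with hg
    have h1 := sumR (R := R) (S := bd U) (g := g) (fun e he => by
      simp only [hg]; rw [if_neg he]; simp) hcovU
    have h2 : ∀ c t, g (bond c t) = (J c t : ℂ) * (chU c t).C (w (bond c t)) x := by
      intro c t
      simp only [hg, hJ]
      rw [bs_bond, bt_bond]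
      rfl
    simp only [h2] at h1
    rw [h1, ← Finset.sum_coe_sort (bd U)]
    refine Finset.sum_congr rfl fun e _ => ?_
    simp only [Fintype.sum_bool, hg]
    rw [if_pos e.2]
    push_cast
    ring
  have hen0 : ∀ x : Ginf, ∑ k ∈ K, ∑ e : KR (blk (pk l k) l), J e.1 e.2 * (chU e.1 e.2).c x =
      ∑ e : ↥(bd U), b * (grad (u e) (v e)).c x := by
    intro x
    have h1 := hen 0 x
    simp only [Pi.zero_apply, Chr.C_zero] at h1
    exact_mod_cast h1
  -- the two free sums
  set I0 : ℝ := ∫ x, Real.exp (∑ e : ↥(bd U), b * (grad (u e) (v e)).c x) ∂muInf with hI0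
  have hI0pos : 0 < I0 := by
    refine integral_exp_pos (cint ?_)
    exact Real.continuous_exp.comp (continuous_finsetSum _ fun e _ =>
      continuous_const.mul (grad (u e) (v e)).cont_c)
  have hfree0 : SG (fun _ : ↥(bd U) => b) (Gf u v) 0 0 = I0 := by
    have h1 := SG_free u v (J := fun _ => b) (fun _ => hb0) 0 0
    have h2 : ∀ x : Ginf, (fourier 1 (ang u v 0 x) : ℂ) *
        Complex.exp (∑ e : ↥(bd U), ((fun _ => b : ↥(bd U) → ℝ) e : ℂ) *
          (grad (u e) (v e)).C (((0 : ↥(bd U) → ℝ) e : ℂ) * Complex.I) x) =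
        ((Real.exp (∑ e : ↥(bd U), b * (grad (u e) (v e)).c x) : ℝ) : ℂ) := by
      intro x
      have h3 : ang u v 0 x = 0 := by
        unfold ang
        simp
      rw [h3, fourier_arg_zero, one_mul, Complex.ofReal_exp]
      congr 1
      push_cast
      refine Finset.sum_congr rfl fun e _ => ?_
      simp only [Pi.zero_apply, Complex.ofReal_zero, zero_mul, Chr.C_zero]
    simp only [h2] at h1
    rw [integral_complex_ofReal] at h1
    exact_mod_cast h1
  have hfreem : SG (fun _ : ↥(bd U) => b) (Gf u v) (fun e => B e) mm ≤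
      (∏ k ∈ K, rk l (helicity b + ε) C y k) * I0 := by
    have h1 := SG_free u v (J := fun _ => b) (fun _ => hb0) (fun e => B e) mm
    have h2 := tile hl hbf hJ' (y := y) (fun c t => hBη _) K F (dv u v mm)
    simp only [hen0] at h2
    rw [← hI0] at h2
    have h3 : ∀ x : Ginf, (chg F (dv u v mm)).e x * Complex.exp (∑ k ∈ K,
        ∑ e : KR (blk (pk l k) l), (J e.1 e.2 : ℂ) *
          (chU e.1 e.2).C (y e.1 e.2 * Complex.I) x) =
        (fourier 1 (ang u v mm x) : ℂ) *
        Complex.exp (∑ e : ↥(bd U), ((fun _ => b : ↥(bd U) → ℝ) e : ℂ) *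
          (grad (u e) (v e)).C ((B e : ℂ) * Complex.I) x) := by
      intro x
      rw [chg_e, ang_eq_lin u v hFu hFv]
      congr 2
      exact hen (fun e => (B e : ℂ) * Complex.I) x
    simp only [h3] at h2
    rw [← h1] at h2
    rw [Complex.norm_real, Real.norm_eq_abs] at h2
    exact (le_abs_self _).trans h2
  -- the ratio
  have hmono := SG_mono (J := fun _ : ↥(bd U) => b) (fun _ => hb0) (GU_le U) (GU_half U)
    (fun e => B e) mm
  rw [← ZB_eq b U m B, ← Z_eq b U, hfree0] at hmono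
  have hZ0 : 0 ≤ D.Z b U := by
    rw [Z_eq]
    exact SG_nonneg (fun _ => hb0) _ _ _
  have hmain : ZB b U m B ≤ (∏ k ∈ K, rk l (helicity b + ε) C y k) * D.Z b U := by
    have h1 : ZB b U m B * I0 ≤ ((∏ k ∈ K, rk l (helicity b + ε) C y k) * D.Z b U) * I0 := by
      refine hmono.trans ?_
      have h2 := mul_le_mul_of_nonneg_right hfreem hZ0
      linarith
    exact le_of_mul_le_mul_right h1 hI0pos
  refine hmain.trans (mul_le_mul_of_nonneg_right ?_ hZ0)
  unfold rk
  rw [← Real.exp_sum]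
  apply Real.exp_le_exp.2
  rw [Finset.sum_add_distrib, ← Finset.mul_sum, ← Finset.mul_sum]
  -- energy
  have hE : ∑ k ∈ K, ∑ e : KR (blk (pk l k) l), y e.1 e.2 ^ 2 = 2 * ∑ e ∈ S, B e ^ 2 := by
    rw [sum_blocks hl K (fun c t => y c t ^ 2)]
    have h1 := sumR (R := R) (S := S) (g := fun e => B e ^ 2) (fun e he => by
      rw [hBS e he]; simp) hcovS
    simp only [Fintype.sum_bool] at h1
    rw [Finset.sum_add_distrib] at h1
    rw [show (∑ c ∈ K.biUnion (fun k => blk (pk l k) l), ∑ t : HT, y c t ^ 2) =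
      ∑ c ∈ R, ∑ t : HT, B (bond c t) ^ 2 from rfl, h1]
    ring
  have hO : ∑ k ∈ K, ∑ e : KR (blk (pk l k) l), ∑ e' : KR (blk (pk l k) l),
      (if e.2.1 = e'.2.1 then (y e.1 e.2 - y e'.1 e'.2) ^ 2 else 0) ≤ 8 * osc l S B := by
    calc ∑ k ∈ K, ∑ e : KR (blk (pk l k) l), ∑ e' : KR (blk (pk l k) l),
          (if e.2.1 = e'.2.1 then (y e.1 e.2 - y e'.1 e'.2) ^ 2 else 0)
        ≤ ∑ k ∈ K, 4 * ∑ e : KR (blk (pk l k) l), (if bond e.1 e.2 ∈ S then
          ∑ u ∈ Finset.Icc (-(l : ℤ), -(l : ℤ)) ((l : ℤ), (l : ℤ)),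
          (B (sh u (bond e.1 e.2)) - B (bond e.1 e.2)) ^ 2 else 0) :=
          Finset.sum_le_sum fun k _ => osc_block hBS
      _ = 4 * ∑ k ∈ K, ∑ e : KR (blk (pk l k) l), (if bond e.1 e.2 ∈ S then
          ∑ u ∈ Finset.Icc (-(l : ℤ), -(l : ℤ)) ((l : ℤ), (l : ℤ)),
          (B (sh u (bond e.1 e.2)) - B (bond e.1 e.2)) ^ 2 else 0) := by
          rw [Finset.mul_sum]
      _ = 8 * osc l S B := by
          set g : Bnd → ℝ := fun e => if e ∈ S then
            ∑ u ∈ Finset.Icc (-(l : ℤ), -(l : ℤ)) ((l : ℤ), (l : ℤ)),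
            (B (sh u e) - B e) ^ 2 else 0 with hg
          have h1 := sumR (R := R) (S := S) (g := g) (fun e he => by
            simp only [hg]; rw [if_neg he]) hcovS
          rw [show (∑ k ∈ K, ∑ e : KR (blk (pk l k) l), (if bond e.1 e.2 ∈ S then
            ∑ u ∈ Finset.Icc (-(l : ℤ), -(l : ℤ)) ((l : ℤ), (l : ℤ)),
            (B (sh u (bond e.1 e.2)) - B (bond e.1 e.2)) ^ 2 else 0)) =
            ∑ k ∈ K, ∑ e : KR (blk (pk l k) l), (fun c t => g (bond c t)) e.1 e.2 from rfl,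
            sum_blocks hl K (fun c t => g (bond c t)), h1]
          simp only [Fintype.sum_bool]
          rw [Finset.sum_add_distrib]
          have h2 : ∑ e ∈ S, g e = osc l S B := by
            unfold osc
            refine Finset.sum_congr rfl fun e he => ?_
            simp only [hg]
            rw [if_pos he]
          rw [h2]
          ring
  rw [hE]
  have hosc : 0 ≤ osc l S B := Finset.sum_nonneg fun _ _ => Finset.sum_nonneg fun _ _ => sq_nonneg _
  have h3 := mul_le_mul_of_nonneg_left hO hC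
  linarith

end Vale.Agent.P159.T1.H731
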