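import Vale.Agent.P159.T1.H731.Harm
import Mathlib.Analysis.SpecialFunctions.Log.Basic
import Mathlib.Algebra.Order.Chebyshev

/-!
The Courant-Lebesgue lemma on the square lattice: a function with bounded Laplacian which vanishes
off `R` is small near the complement of `R`, if the complement meets all square rings.
-/

open Filter Topology

namespace Vale.Agent.P159.T1.H731

open Vale.Agent.P159.T1.D

/-! ### one dimensional estimates -/

lemma tele (w : ℤ → ℝ) (i : ℤ) (n : ℕ) :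
    w (i + n) - w i = ∑ j ∈ Finset.range n, (w (i + j + 1) - w (i + j)) := by
  induction n with
  | zero => simp
  | succ n ih =>
    rw [Finset.sum_range_succ, ← ih]
    push_cast
    have : i + ((n : ℤ) + 1) = i + n + 1 := by ring
    rw [this]
    ring

/-- energy of a function on the interval `[-ρ, ρ]` -/
noncomputable def e1 (w : ℤ → ℝ) (ρ : ℕ) : ℝ := ∑ x ∈ Finset.Ico (-(ρ : ℤ)) ρ, (w (x + 1) - w x) ^ 2

lemma e1_nonneg (w : ℤ → ℝ) (ρ : ℕ) : 0 ≤ e1 w ρ := Finset.sum_nonneg fun _ _ => sq_nonneg _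

lemma seg {w : ℤ → ℝ} {ρ : ℕ} {i k : ℤ} (hi : -(ρ : ℤ) ≤ i) (hik : i ≤ k) (hk : k ≤ ρ) :
    (w k - w i) ^ 2 ≤ 2 * ρ * e1 w ρ := by
  obtain ⟨n, rfl⟩ : ∃ n : ℕ, k = i + n := ⟨(k - i).toNat, by omega⟩
  rw [tele]
  have h1 := sq_sum_le_card_mul_sum_sq (s := Finset.range n)
    (f := fun j : ℕ => w (i + j + 1) - w (i + j))
  rw [Finset.card_range] at h1
  have h2 : ∑ j ∈ Finset.range n, (w (i + j + 1) - w (i + j)) ^ 2 ≤ e1 w ρ := by
    have hinj : Set.InjOn (fun j : ℕ => i + (j : ℤ)) (Finset.range n : Finset ℕ) := by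
      intro a _ b _ hab
      simp only at hab
      omega
    have h3 := Finset.sum_image (f := fun x : ℤ => (w (x + 1) - w x) ^ 2) hinj

    rw [← h3]
    refine Finset.sum_le_sum_of_subset_of_nonneg ?_ fun _ _ _ => sq_nonneg _
    intro x hx
    obtain ⟨j, hj, rfl⟩ := Finset.mem_image.1 hx
    rw [Finset.mem_range] at hj
    rw [Finset.mem_Ico]
    omega
  refine h1.trans ?_
  have h4 : (n : ℝ) ≤ 2 * ρ := by
    have : n ≤ 2 * ρ := by omega
    exact_mod_cast this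
  have h5 : 0 ≤ ∑ j ∈ Finset.range n, (w (i + j + 1) - w (i + j)) ^ 2 :=
    Finset.sum_nonneg fun _ _ => sq_nonneg _
  exact mul_le_mul h4 h2 h5 (by positivity)

/-! ### rings around the origin -/

/-- energy of the square ring of radius `ρ` -/
noncomputable def eR (u : Z2 → ℝ) (ρ : ℕ) : ℝ :=
  e1 (fun x => u (x, (ρ : ℤ))) ρ + e1 (fun x => u (x, -(ρ : ℤ))) ρ +
    e1 (fun y => u ((ρ : ℤ), y)) ρ + e1 (fun y => u (-(ρ : ℤ), y)) ρ

lemma eR_nonneg (u : Z2 → ℝ) (ρ : ℕ) : 0 ≤ eR u ρ := by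
  unfold eR
  have h1 := e1_nonneg (fun x => u (x, (ρ : ℤ))) ρ
  have h2 := e1_nonneg (fun x => u (x, -(ρ : ℤ))) ρ
  have h3 := e1_nonneg (fun y => u ((ρ : ℤ), y)) ρ
  have h4 := e1_nonneg (fun y => u (-(ρ : ℤ), y)) ρ
  linarith

/-- the ring -/
def ring (ρ : ℕ) (g : Z2) : Prop := (|g.1| = ρ ∧ |g.2| ≤ ρ) ∨ (|g.2| = ρ ∧ |g.1| ≤ ρ)

lemma ring_corner {u : Z2 → ℝ} {ρ : ℕ} {g : Z2} (hg : ring ρ g) :
    (u g - u ((ρ : ℤ), (ρ : ℤ))) ^ 2 ≤ 8 * ρ * eR u ρ := by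
  obtain ⟨x, y⟩ := g
  have h1 := e1_nonneg (fun x => u (x, (ρ : ℤ))) ρ
  have h2 := e1_nonneg (fun x => u (x, -(ρ : ℤ))) ρ
  have h3 := e1_nonneg (fun y => u ((ρ : ℤ), y)) ρ
  have h4 := e1_nonneg (fun y => u (-(ρ : ℤ), y)) ρ
  have hρ : (0 : ℝ) ≤ ρ := by positivity
  have m1 := mul_nonneg hρ h1
  have m2 := mul_nonneg hρ h2
  have m3 := mul_nonneg hρ h3
  have m4 := mul_nonneg hρ h4
  have two : ∀ a b c d : ℝ, (a - b) ^ 2 ≤ 2 * c → (b - d) ^ 2 ≤ 2 * c → (a - d) ^ 2 ≤ 8 * c := by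
    intro a b c d g1 g2
    nlinarith [sq_nonneg ((a - b) - (b - d))]
  unfold eR
  rcases hg with ⟨h5, h6⟩ | ⟨h5, h6⟩
  · simp only at h5 h6
    rw [abs_le] at h6
    rcases (abs_eq (by positivity)).1 h5 with rfl | rfl
    · have := seg (w := fun y => u ((ρ : ℤ), y)) h6.1 h6.2 le_rfl
      nlinarith
    · have a1 := seg (w := fun y => u (-(ρ : ℤ), y)) h6.1 h6.2 le_rfl
      have a2 := seg (w := fun x => u (x, (ρ : ℤ))) (i := -(ρ : ℤ)) (k := ρ) le_rfl (by omega) le_rfl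
      have := two (u (-(ρ : ℤ), y)) (u (-(ρ : ℤ), (ρ : ℤ)))
        (ρ * (e1 (fun y => u (-(ρ : ℤ), y)) ρ + e1 (fun x => u (x, (ρ : ℤ))) ρ))
        (u ((ρ : ℤ), (ρ : ℤ))) (by nlinarith) (by nlinarith)
      nlinarith
  · simp only at h5 h6
    rw [abs_le] at h6
    rcases (abs_eq (by positivity)).1 h5 with rfl | rfl
    · have := seg (w := fun x => u (x, (ρ : ℤ))) h6.1 h6.2 le_rfl
      nlinarith
    · have a1 := seg (w := fun x => u (x, -(ρ : ℤ))) h6.1 h6.2 le_rfl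
      have a2 := seg (w := fun y => u ((ρ : ℤ), y)) (i := -(ρ : ℤ)) (k := ρ) le_rfl (by omega) le_rfl
      have := two (u (x, -(ρ : ℤ))) (u ((ρ : ℤ), -(ρ : ℤ)))
        (ρ * (e1 (fun x => u (x, -(ρ : ℤ))) ρ + e1 (fun y => u ((ρ : ℤ), y)) ρ))
        (u ((ρ : ℤ), (ρ : ℤ))) (by nlinarith) (by nlinarith)
      nlinarith

lemma ring_osc {u : Z2 → ℝ} {ρ : ℕ} {g g' : Z2} (hg : ring ρ g) (hg' : ring ρ g') :
    (u g - u g') ^ 2 ≤ 32 * ρ * eR u ρ := by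
  have h1 := ring_corner (u := u) hg
  have h2 := ring_corner (u := u) hg'
  nlinarith [sq_nonneg ((u g - u ((ρ : ℤ), (ρ : ℤ))) + (u g' - u ((ρ : ℤ), (ρ : ℤ))))]

/-- the square as a finite set -/
noncomputable def sqF (A : ℕ) : Finset Z2 := Finset.Icc (-(A : ℤ)) A ×ˢ Finset.Icc (-(A : ℤ)) A

lemma mem_sqF {A : ℕ} {g : Z2} : g ∈ sqF A ↔ |g.1| ≤ A ∧ |g.2| ≤ A := by
  unfold sqF
  rw [Finset.mem_product, Finset.mem_Icc, Finset.mem_Icc, abs_le, abs_le]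

/-- energy in the square -/
noncomputable def eQ (u : Z2 → ℝ) (A : ℕ) : ℝ :=
  ∑ g ∈ sqF A, ((u (g.1 + 1, g.2) - u g) ^ 2 + (u (g.1, g.2 + 1) - u g) ^ 2)

lemma eQ_nonneg (u : Z2 → ℝ) (A : ℕ) : 0 ≤ eQ u A :=
  Finset.sum_nonneg fun _ _ => add_nonneg (sq_nonneg _) (sq_nonneg _)

/-- the rings are disjoint -/
lemma sum_rings (u : Z2 → ℝ) {a A : ℕ} (ha : 1 ≤ a) :
    ∑ ρ ∈ Finset.Ico a A, eR u ρ ≤ eQ u A := by
  classical
  -- every term as a sum over the square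
  have hh : ∀ (s : ℤ) (ρ : ℕ), (s = 1 ∨ s = -1) → ρ ∈ Finset.Ico a A →
      e1 (fun x => u (x, s * ρ)) ρ = ∑ g ∈ sqF A, (if g.2 = s * ρ ∧ -(ρ : ℤ) ≤ g.1 ∧ g.1 < ρ then
        (u (g.1 + 1, g.2) - u g) ^ 2 else 0) := by
    intro s ρ hs hρ
    rw [Finset.mem_Ico] at hρ
    rw [← Finset.sum_filter]
    unfold e1
    refine Finset.sum_nbij' (fun x => (x, s * ρ)) (fun g => g.1) ?_ ?_ ?_ ?_ ?_
    · intro x hx
      rw [Finset.mem_Ico] at hx
      rw [Finset.mem_filter, mem_sqF]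
      refine ⟨⟨?_, ?_⟩, rfl, hx.1, hx.2⟩
      · simp only; rw [abs_le]; omega
      · simp only; rw [abs_le]; rcases hs with rfl | rfl <;> omega
    · intro g hg
      rw [Finset.mem_filter] at hg
      rw [Finset.mem_Ico]
      exact hg.2.2
    · intro x _
      rfl
    · intro g hg
      rw [Finset.mem_filter] at hg
      exact Prod.ext rfl hg.2.1.symm
    · intro x _
      rfl
  have hv : ∀ (s : ℤ) (ρ : ℕ), (s = 1 ∨ s = -1) → ρ ∈ Finset.Ico a A →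
      e1 (fun y => u (s * ρ, y)) ρ = ∑ g ∈ sqF A, (if g.1 = s * ρ ∧ -(ρ : ℤ) ≤ g.2 ∧ g.2 < ρ then
        (u (g.1, g.2 + 1) - u g) ^ 2 else 0) := by
    intro s ρ hs hρ
    rw [Finset.mem_Ico] at hρ
    rw [← Finset.sum_filter]
    unfold e1
    refine Finset.sum_nbij' (fun y => (s * ρ, y)) (fun g => g.2) ?_ ?_ ?_ ?_ ?_
    · intro x hx
      rw [Finset.mem_Ico] at hx
      rw [Finset.mem_filter, mem_sqF]
      refine ⟨⟨?_, ?_⟩, rfl, hx.1, hx.2⟩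
      · simp only; rw [abs_le]; rcases hs with rfl | rfl <;> omega
      · simp only; rw [abs_le]; omega
    · intro g hg
      rw [Finset.mem_filter] at hg
      rw [Finset.mem_Ico]
      exact hg.2.2
    · intro x _
      rfl
    · intro g hg
      rw [Finset.mem_filter] at hg
      exact Prod.ext hg.2.1.symm rfl
    · intro x _
      rfl
  -- counting
  have cnt : ∀ (z t : ℤ) (c : ℝ), 0 ≤ c → ∑ ρ ∈ Finset.Ico a A,
      ((if z = 1 * (ρ : ℤ) ∧ -(ρ : ℤ) ≤ t ∧ t < ρ then c else 0) +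
        (if z = -1 * (ρ : ℤ) ∧ -(ρ : ℤ) ≤ t ∧ t < ρ then c else 0)) ≤ c := by
    intro z t c hc
    have h1 : ∀ ρ ∈ Finset.Ico a A,
        ((if z = 1 * (ρ : ℤ) ∧ -(ρ : ℤ) ≤ t ∧ t < ρ then c else 0) +
        (if z = -1 * (ρ : ℤ) ∧ -(ρ : ℤ) ≤ t ∧ t < ρ then c else 0)) ≤
        if ρ = z.natAbs then c else 0 := by
      intro ρ hρ
      rw [Finset.mem_Ico] at hρ
      by_cases h2 : ρ = z.natAbs
      · rw [if_pos h2]
        by_cases h3 : z = 1 * (ρ : ℤ)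
        · have h4 : ¬ z = -1 * (ρ : ℤ) := by omega
          simp only [h4, false_and, if_false, add_zero]
          split_ifs
          · exact le_rfl
          · exact hc
        · simp only [h3, false_and, if_false, zero_add]
          split_ifs
          · exact le_rfl
          · exact hc
      · rw [if_neg h2]
        have h3 : ¬ z = 1 * (ρ : ℤ) := by omega
        have h4 : ¬ z = -1 * (ρ : ℤ) := by omega
        rw [if_neg (fun h => h3 h.1), if_neg (fun h => h4 h.1), add_zero]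
    refine (Finset.sum_le_sum h1).trans ?_
    rw [Finset.sum_ite_eq']
    split_ifs
    · exact le_rfl
    · exact hc
  have h1 : ∑ ρ ∈ Finset.Ico a A, eR u ρ = ∑ ρ ∈ Finset.Ico a A, ∑ g ∈ sqF A,
      (((if g.2 = 1 * (ρ : ℤ) ∧ -(ρ : ℤ) ≤ g.1 ∧ g.1 < ρ then (u (g.1 + 1, g.2) - u g) ^ 2 else 0) +
        (if g.2 = -1 * (ρ : ℤ) ∧ -(ρ : ℤ) ≤ g.1 ∧ g.1 < ρ then (u (g.1 + 1, g.2) - u g) ^ 2 else 0)) +
      ((if g.1 = 1 * (ρ : ℤ) ∧ -(ρ : ℤ) ≤ g.2 ∧ g.2 < ρ then (u (g.1, g.2 + 1) - u g) ^ 2 else 0) +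
        (if g.1 = -1 * (ρ : ℤ) ∧ -(ρ : ℤ) ≤ g.2 ∧ g.2 < ρ then
          (u (g.1, g.2 + 1) - u g) ^ 2 else 0))) := by
    refine Finset.sum_congr rfl fun ρ hρ => ?_
    rw [Finset.sum_add_distrib, Finset.sum_add_distrib, Finset.sum_add_distrib,
      ← hh 1 ρ (Or.inl rfl) hρ, ← hh (-1) ρ (Or.inr rfl) hρ, ← hv 1 ρ (Or.inl rfl) hρ,
      ← hv (-1) ρ (Or.inr rfl) hρ]
    unfold eR
    simp only [one_mul, neg_mul]
    ring_nf
  rw [h1, Finset.sum_comm]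
  unfold eQ
  refine Finset.sum_le_sum fun g _ => ?_
  rw [Finset.sum_add_distrib]
  exact add_le_add (cnt g.2 g.1 _ (sq_nonneg _)) (cnt g.1 g.2 _ (sq_nonneg _))

lemma log_le_sum {a A : ℕ} (ha : 1 ≤ a) (hA : a ≤ A) :
    Real.log ((A : ℝ) / a) ≤ ∑ ρ ∈ Finset.Ico a A, 1 / (ρ : ℝ) := by
  induction A, hA using Nat.le_induction with
  | base =>
    have : (a : ℝ) ≠ 0 := by positivity
    simp [this]
  | succ n hn ih =>
    rw [Finset.sum_Ico_succ_top hn]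
    have hn0 : (0 : ℝ) < n := by
      have : 0 < n := by omega
      positivity
    have ha0 : (0 : ℝ) < a := by positivity
    have e : ((n + 1 : ℕ) : ℝ) / a = (n : ℝ) / a * (1 + 1 / n) := by
      push_cast
      field_simp
    rw [e, Real.log_mul (by positivity) (by positivity)]
    have h1 := Real.log_le_sub_one_of_pos (x := 1 + 1 / (n : ℝ)) (by positivity)
    linarith

/-- one ring with small oscillation -/
theorem ring_small (u : Z2 → ℝ) {a A : ℕ} (ha : 1 ≤ a) (hA : a < A) :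
    ∃ ρ, a ≤ ρ ∧ ρ < A ∧ ∀ g g', ring ρ g → ring ρ g' →
      (u g - u g') ^ 2 * Real.log ((A : ℝ) / a) ≤ 32 * eQ u A := by
  set S : ℝ := ∑ ρ ∈ Finset.Ico a A, 1 / (ρ : ℝ) with hS
  have hlog := log_le_sum ha hA.le
  rw [← hS] at hlog
  have ha0 : (0 : ℝ) < a := by positivity
  have hS0 : 0 < S := by
    refine lt_of_lt_of_le (Real.log_pos ?_) hlog
    rw [one_lt_div ha0]
    exact_mod_cast hA
  obtain ⟨ρ, hρ, h1⟩ := Finset.exists_le_of_sum_le (s := Finset.Ico a A)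
    (f := fun ρ => eR u ρ) (g := fun ρ => eQ u A / S * (1 / (ρ : ℝ)))
    ⟨a, Finset.mem_Ico.2 ⟨le_rfl, hA⟩⟩ (by
      rw [← Finset.mul_sum, ← hS, div_mul_cancel₀ _ hS0.ne']
      exact sum_rings u ha)
  rw [Finset.mem_Ico] at hρ
  refine ⟨ρ, hρ.1, hρ.2, fun g g' hg hg' => ?_⟩
  have h2 := ring_osc (u := u) hg hg'
  have hρ0 : (0 : ℝ) < ρ := by
    have : 0 < ρ := by omega
    positivity
  have h3 : ρ * eR u ρ ≤ eQ u A / S := by
    have := mul_le_mul_of_nonneg_left h1 hρ0.le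
    calc ρ * eR u ρ ≤ ρ * (eQ u A / S * (1 / ρ)) := this
      _ = eQ u A / S := by field_simp
  have h4 : (u g - u g') ^ 2 * S ≤ 32 * eQ u A := by
    have h5 : (u g - u g') ^ 2 ≤ 32 * (eQ u A / S) := by nlinarith
    calc (u g - u g') ^ 2 * S ≤ 32 * (eQ u A / S) * S := mul_le_mul_of_nonneg_right h5 hS0.le
      _ = 32 * eQ u A := by field_simp
  exact (mul_le_mul_of_nonneg_left hlog (sq_nonneg _)).trans h4

end Vale.Agent.P159.T1.H731
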