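import Vale.Agent.P159.T1.H731.U1
import Vale.Agent.P159.H950.B2
import Vale.Agent.P159.R2.H254.Expand

/-!
The sum over the currents with free boundary as an integral over the spins.
-/

open MeasureTheory Filter Topology

namespace Vale.Agent.P159.T1.H731

open Vale.Agent.P159 Vale.Agent.P159.H353 Vale.Agent.P159.T1.H934 Vale.Agent.P159.R2.H254

/-! ### charges -/

/-- the angle `∑ Q v x v` -/
noncomputable def lin (F : Finset (ℤ × ℤ)) (Q : ℤ × ℤ → ℤ) (x : Ginf) : T := ∑ v ∈ F, Q v • x v

lemma lin_add (F : Finset (ℤ × ℤ)) (Q : ℤ × ℤ → ℤ) (x y : Ginf) :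
    lin F Q (x + y) = lin F Q x + lin F Q y := by
  unfold lin
  rw [← Finset.sum_add_distrib]
  exact Finset.sum_congr rfl fun v _ => by rw [Pi.add_apply, smul_add]

lemma lin_cont (F : Finset (ℤ × ℤ)) (Q : ℤ × ℤ → ℤ) : Continuous (lin F Q) :=
  continuous_finsetSum _ fun v _ => (continuous_apply v).zsmul (Q v)

/-- the character of the charges `Q` on `F` -/
noncomputable def chg (F : Finset (ℤ × ℤ)) (Q : ℤ × ℤ → ℤ) : Chr Ginf where
  c x := cosT (lin F Q x)
  s x := sinT (lin F Q x)
  cont_c := cont_cos.comp (lin_cont F Q)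
  cont_s := cont_sin.comp (lin_cont F Q)
  c_add x y := by rw [lin_add]; exact Real.Angle.cos_add _ _
  s_add x y := by rw [lin_add]; exact Real.Angle.sin_add _ _
  norm_sq x := Real.Angle.cos_sq_add_sin_sq _

lemma fourier_one_cs (x : T) : (fourier 1 x : ℂ) = cosT x + Complex.I * sinT x := by
  have h0 := fourier_one_ne x
  rw [cosT_eq, sinT_eq]
  have hI : Complex.I ≠ 0 := Complex.I_ne_zero
  field_simp
  ring

lemma chg_e (F : Finset (ℤ × ℤ)) (Q : ℤ × ℤ → ℤ) (x : Ginf) :
    (chg F Q).e x = (fourier 1 (lin F Q x) : ℂ) := by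
  rw [fourier_one_cs]
  unfold Chr.e chg
  ring

lemma fourier_arg_add (x y : T) : (fourier 1 (x + y) : ℂ) = (fourier 1 x : ℂ) * (fourier 1 y : ℂ) := by
  rw [fourier_apply, fourier_apply, fourier_apply, one_zsmul, one_zsmul, one_zsmul,
    AddCircle.toCircle_add]
  push_cast
  rfl

lemma fourier_arg_zero : (fourier 1 (0 : T) : ℂ) = 1 := by
  rw [fourier_apply, one_zsmul, AddCircle.toCircle_zero]
  rfl

lemma fourier_arg_sum {ι : Type*} (s : Finset ι) (f : ι → T) :
    (fourier 1 (∑ i ∈ s, f i) : ℂ) = ∏ i ∈ s, (fourier 1 (f i) : ℂ) := by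
  classical
  induction s using Finset.induction_on with
  | empty => rw [Finset.sum_empty, Finset.prod_empty, fourier_arg_zero]
  | insert a s ha ih => rw [Finset.sum_insert ha, Finset.prod_insert ha, fourier_arg_add, ih]

lemma fourier_smul (n : ℤ) (x : T) : (fourier n x : ℂ) = (fourier 1 (n • x) : ℂ) := by
  rw [fourier_apply, fourier_apply, one_zsmul]

section free

variable {E : Type} [Fintype E] (u v : E → ℤ × ℤ)

/-- divergence -/
def dv (n : E → ℤ) (w : ℤ × ℤ) : ℤ :=
  ∑ e, n e * ((if u e = w then 1 else 0) - (if v e = w then 1 else 0))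

/-- the currents without divergence -/
def Gf : AddSubgroup (E → ℤ) where
  carrier := {n | ∀ w, dv u v n w = 0}
  zero_mem' := fun w => by unfold dv; simp
  add_mem' := by
    intro a b ha hb w
    have h1 := ha w
    have h2 := hb w
    unfold dv at h1 h2 ⊢
    simp only [Pi.add_apply, add_mul, Finset.sum_add_distrib]
    rw [h1, h2, add_zero]
  neg_mem' := by
    intro a ha w
    have h1 := ha w
    unfold dv at h1 ⊢
    simp only [Pi.neg_apply, neg_mul, Finset.sum_neg_distrib]
    rw [h1, neg_zero]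

lemma mem_Gf {n : E → ℤ} : n ∈ Gf u v ↔ ∀ w, dv u v n w = 0 := Iff.rfl

/-- the angle `∑ k e (x (u e) - x (v e))` -/
noncomputable def ang (k : E → ℤ) (x : Ginf) : T := ∑ e, k e • (x (u e) - x (v e))

lemma ang_eq_lin {F : Finset (ℤ × ℤ)} (hu : ∀ e, u e ∈ F) (hv : ∀ e, v e ∈ F) (k : E → ℤ)
    (x : Ginf) : ang u v k x = lin F (dv u v k) x := by
  have h1 : ∀ w ∈ F, dv u v k w • x w = ∑ e, (k e * ((if u e = w then 1 else 0) -
      (if v e = w then 1 else 0))) • x w := by
    intro w _
    unfold dv
    rw [Finset.sum_smul]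
  unfold lin ang
  rw [Finset.sum_congr rfl h1, Finset.sum_comm]
  refine Finset.sum_congr rfl fun e _ => ?_
  have h2 : ∀ w ∈ F, (k e * ((if u e = w then 1 else 0) - (if v e = w then 1 else 0))) • x w =
      (if u e = w then k e • x w else 0) - (if v e = w then k e • x w else 0) := by
    intro w _
    rw [mul_sub, sub_smul]
    by_cases h3 : u e = w <;> by_cases h4 : v e = w <;> simp [h3, h4]
  rw [Finset.sum_congr rfl h2, Finset.sum_sub_distrib, Finset.sum_ite_eq F (u e),
    Finset.sum_ite_eq F (v e), if_pos (hu e), if_pos (hv e), smul_sub]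

lemma ang_add (k : E → ℤ) (x y : Ginf) : ang u v k (x + y) = ang u v k x + ang u v k y := by
  unfold ang
  rw [← Finset.sum_add_distrib]
  refine Finset.sum_congr rfl fun e _ => ?_
  rw [← smul_add, Pi.add_apply, Pi.add_apply]
  congr 1
  abel

lemma ang_cont (k : E → ℤ) : Continuous (ang u v k) :=
  continuous_finsetSum _ fun e _ =>
    ((continuous_apply (u e)).sub (continuous_apply (v e))).zsmul (k e)

lemma ang_sub (k l : E → ℤ) (x : Ginf) : ang u v (k - l) x = ang u v k x - ang u v l x := by
  unfold ang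
  rw [← Finset.sum_sub_distrib]
  refine Finset.sum_congr rfl fun e _ => ?_
  rw [Pi.sub_apply, sub_smul]

lemma fourier_cont : Continuous fun x : T => (fourier 1 x : ℂ) := (fourier 1).continuous

open Classical in
/-- orthogonality -/
lemma integral_ang (k : E → ℤ) :
    ∫ x : Ginf, (fourier 1 (ang u v k x) : ℂ) ∂muInf = if k ∈ Gf u v then 1 else 0 := by
  obtain ⟨F, hu, hv⟩ : ∃ F : Finset (ℤ × ℤ), (∀ e, u e ∈ F) ∧ ∀ e, v e ∈ F :=
    ⟨Finset.univ.image u ∪ Finset.univ.image v,
      fun e => Finset.mem_union_left _ (Finset.mem_image_of_mem _ (Finset.mem_univ e)),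
      fun e => Finset.mem_union_right _ (Finset.mem_image_of_mem _ (Finset.mem_univ e))⟩
  split_ifs with h
  · have h1 : ∀ x : Ginf, (fourier 1 (ang u v k x) : ℂ) = 1 := by
      intro x
      rw [ang_eq_lin u v hu hv]
      have : lin F (dv u v k) x = 0 := by
        unfold lin
        refine Finset.sum_eq_zero fun w _ => ?_
        rw [h w, zero_smul]
      rw [this, fourier_arg_zero]
    simp [h1]
  · rw [mem_Gf] at h
    push Not at h
    obtain ⟨w, hw⟩ := h
    have hwF : w ∈ F := by
      by_contra h1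
      apply hw
      unfold dv
      refine Finset.sum_eq_zero fun e _ => ?_
      have h3 : u e ≠ w := fun h4 => h1 (h4 ▸ hu e)
      have h4 : v e ≠ w := fun h4 => h1 (h4 ▸ hv e)
      simp [h3, h4]
    set q := dv u v k w with hq
    set x0 : Ginf := Pi.single w ((Real.pi / q : ℝ) : T) with hx0
    have hval : (fourier 1 (ang u v k x0) : ℂ) = -1 := by
      have e1 : ang u v k x0 = ((Real.pi : ℝ) : T) := by
        rw [ang_eq_lin u v hu hv]
        unfold lin
        rw [Finset.sum_eq_single w]
        · rw [hx0, Pi.single_eq_same, ← hq, ← AddCircle.coe_zsmul]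
          congr 1
          rw [zsmul_eq_mul]
          have : (q : ℝ) ≠ 0 := by exact_mod_cast hw
          field_simp
        · intro w' _ h5
          rw [hx0, Pi.single_eq_of_ne h5, smul_zero]
        · exact fun h5 => absurd hwF h5
      rw [e1, fourier_one_cs, cosT_coe, sinT_coe]
      simp
    have hinv := integral_add_right_eq_self (μ := muInf)
      (fun x : Ginf => (fourier 1 (ang u v k x) : ℂ)) x0
    simp only [ang_add, fourier_arg_add, hval] at hinv
    rw [integral_mul_const] at hinv
    have h6 : (2 : ℂ) * ∫ x : Ginf, (fourier 1 (ang u v k x) : ℂ) ∂muInf = 0 := by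
      linear_combination -hinv
    rcases mul_eq_zero.1 h6 with h7 | h7
    · norm_num at h7
    · exact h7

lemma term_sum {b : ℝ} (hb : 0 ≤ b) (y : ℝ) (x : T) :
    HasSum (fun n : ℤ => (wI b n : ℂ) * ((fourier (-n) x : ℂ) * Complex.exp (n * y)))
      (Complex.exp (b * cosC x (y * Complex.I))) := by
  have h := hasSum_cosC hb x (y * Complex.I)
  have h1 := (Equiv.neg ℤ).hasSum_iff.2 h
  refine hs_congr h1 fun n => ?_
  simp only [Function.comp, Equiv.neg_apply]
  rw [wI_neg]
  congr 3
  push_cast
  have := Complex.I_mul_I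
  linear_combination (-(n : ℂ) * y) * this

lemma term_norm {b : ℝ} (hb : 0 ≤ b) (y : ℝ) (x : T) (n : ℤ) :
    ‖(wI b n : ℂ) * ((fourier (-n) x : ℂ) * Complex.exp (n * y))‖ =
      wI b n * Real.exp (y * n) := by
  rw [norm_mul, norm_mul, fourier_norm_one, one_mul, Complex.norm_real, Real.norm_eq_abs,
    abs_of_nonneg (wI_nonneg hb n)]
  congr 1
  rw [show ((n : ℂ) * (y : ℂ)) = (((y * n : ℝ)) : ℂ) by push_cast; ring, ← Complex.ofReal_exp,
    Complex.norm_real, Real.norm_eq_abs, abs_of_pos (Real.exp_pos _)]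

lemma wt_prod (J y : E → ℝ) (n : E → ℤ) :
    wt J y n = ∏ e, (wI (J e) (n e) * Real.exp (y e * n e)) := by
  unfold wt
  rw [Finset.prod_mul_distrib, Real.exp_sum]

/-- **the sum over the free currents in the sector `m`** -/
theorem SG_free {J : E → ℝ} (hJ : ∀ e, 0 ≤ J e) (y : E → ℝ) (m : E → ℤ) :
    (SG J (Gf u v) y m : ℂ) = ∫ x : Ginf, (fourier 1 (ang u v m x) : ℂ) *
      Complex.exp (∑ e, J e * (grad (u e) (v e)).C (y e * Complex.I) x) ∂muInf := by
  classical
  set tm : (E → ℤ) → Ginf → ℂ := fun n x => (fourier 1 (ang u v m x) : ℂ) *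
    ∏ e, ((wI (J e) (n e) : ℂ) * ((fourier (-n e) (x (u e) - x (v e)) : ℂ) *
      Complex.exp (n e * y e))) with htm
  have hnorm : ∀ n x, ‖tm n x‖ = wt J y n := by
    intro n x
    rw [htm, wt_prod]
    simp only
    rw [norm_mul, fourier_norm_one, one_mul, norm_prod]
    exact Finset.prod_congr rfl fun e _ => term_norm (hJ e) _ _ _
  have hpt : ∀ x : Ginf, HasSum (fun n => tm n x) ((fourier 1 (ang u v m x) : ℂ) *
      Complex.exp (∑ e, J e * (grad (u e) (v e)).C (y e * Complex.I) x)) := by
    intro x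
    have h := prod_tsum_all ℤ E (fun e n => (wI (J e) n : ℂ) *
      ((fourier (-n) (x (u e) - x (v e)) : ℂ) * Complex.exp (n * y e))) (fun e => by
        have h1 := (term_sum (hJ e) (y e) (x (u e) - x (v e))).summable
        exact h1.norm)
    have h2 : ∏ e, ∑' n : ℤ, ((wI (J e) n : ℂ) *
        ((fourier (-n) (x (u e) - x (v e)) : ℂ) * Complex.exp (n * y e))) =
        Complex.exp (∑ e, J e * (grad (u e) (v e)).C (y e * Complex.I) x) := by
      rw [Complex.exp_sum]
      refine Finset.prod_congr rfl fun e _ => ?_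
      rw [(term_sum (hJ e) (y e) (x (u e) - x (v e))).tsum_eq]
      rfl
    have h3 : Summable fun n : E → ℤ => ∏ e, ((wI (J e) (n e) : ℂ) *
        ((fourier (-n e) (x (u e) - x (v e)) : ℂ) * Complex.exp (n e * y e))) := h.1.of_norm
    have h4 := h3.hasSum
    rw [h.2, h2] at h4
    exact h4.mul_left _
  have hcont : ∀ n, Continuous (tm n) := by
    intro n
    refine (fourier_cont.comp (ang_cont u v m)).mul (continuous_finsetProd _ fun e _ => ?_)
    exact continuous_const.mul (((fourier (-n e)).continuous.comp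
      ((continuous_apply (u e)).sub (continuous_apply (v e)))).mul continuous_const)
  have hint : ∀ n, ∫ x : Ginf, tm n x ∂muInf =
      ((if n - m ∈ Gf u v then wt J y n else 0 : ℝ) : ℂ) := by
    intro n
    have e1 : ∀ x : Ginf, tm n x = (wt J y n : ℂ) * (fourier 1 (ang u v (m - n) x) : ℂ) := by
      intro x
      have e2 : (fourier 1 (ang u v (m - n) x) : ℂ) = (fourier 1 (ang u v m x) : ℂ) *
          ∏ e, (fourier (-n e) (x (u e) - x (v e)) : ℂ) := by
        rw [ang_sub, sub_eq_add_neg, fourier_arg_add]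
        congr 1
        have e3 : -ang u v n x = ∑ e, (-n e) • (x (u e) - x (v e)) := by
          unfold ang
          rw [← Finset.sum_neg_distrib]
          exact Finset.sum_congr rfl fun e _ => by rw [neg_smul]
        rw [e3, fourier_arg_sum]
        exact Finset.prod_congr rfl fun e _ => (fourier_smul _ _).symm
      rw [e2, htm, wt_prod]
      simp only
      rw [Finset.prod_mul_distrib, Finset.prod_mul_distrib]
      push_cast
      rw [Finset.prod_mul_distrib]
      have e4 : ∏ e, Complex.exp (y e * n e) = ∏ e, Complex.exp (n e * y e) :=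
        Finset.prod_congr rfl fun e _ => by rw [mul_comm]
      rw [e4]
      ring
    simp only [e1]
    rw [integral_const_mul, integral_ang]
    have e5 : m - n ∈ Gf u v ↔ n - m ∈ Gf u v := by
      rw [← neg_mem_iff, neg_sub]
    by_cases h : n - m ∈ Gf u v
    · rw [if_pos (e5.2 h), if_pos h, mul_one]
    · rw [if_neg (fun h1 => h (e5.1 h1)), if_neg h, mul_zero, Complex.ofReal_zero]
  have hs := hasSum_integral_of_summable_integral_norm (μ := muInf) (F := tm)
    (fun n => ((hcont n).integrable_of_hasCompactSupport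
      (HasCompactSupport.of_compactSpace _))) (by
      simp only [hnorm]
      refine (wt_summable hJ y).congr fun n => ?_
      simp)
  simp only [hint] at hs
  have e6 : ∀ x : Ginf, ∑' n, tm n x = (fourier 1 (ang u v m x) : ℂ) *
      Complex.exp (∑ e, J e * (grad (u e) (v e)).C (y e * Complex.I) x) :=
    fun x => (hpt x).tsum_eq
  simp only [e6] at hs
  rw [← hs.tsum_eq]
  unfold SG
  rw [Complex.ofReal_tsum]

end free

end Vale.Agent.P159.T1.H731
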