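import Vale.Agent.P159.T1.D.Defs

/-!
Discrete harmonic functions on finite sets of faces: maximum principle, Dirichlet problem,
summation by parts, Dirichlet principle, interior estimates of the first and second differences.
-/

open Filter Topology

namespace Vale.Agent.P159.T1.H731

open Vale.Agent.P159.T1.D

/-- lattice Laplacian -/
def lap (v : Z2 → ℝ) (f : Z2) : ℝ :=
  v (f.1 + 1, f.2) + v (f.1 - 1, f.2) + v (f.1, f.2 + 1) + v (f.1, f.2 - 1) - 4 * v f

lemma lap_add (v w : Z2 → ℝ) (f : Z2) : lap (fun g => v g + w g) f = lap v f + lap w f := by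
  unfold lap; ring

lemma lap_sub (v w : Z2 → ℝ) (f : Z2) : lap (fun g => v g - w g) f = lap v f - lap w f := by
  unfold lap; ring

lemma lap_smul (c : ℝ) (v : Z2 → ℝ) (f : Z2) : lap (fun g => c * v g) f = c * lap v f := by
  unfold lap; ring

lemma lap_neg (v : Z2 → ℝ) (f : Z2) : lap (fun g => -v g) f = -lap v f := by
  unfold lap; ring

lemma lap_const (c : ℝ) (f : Z2) : lap (fun _ => c) f = 0 := by
  unfold lap; ring

/-- neighbours -/
def Nb (f g : Z2) : Prop :=
  g = (f.1 + 1, f.2) ∨ g = (f.1 - 1, f.2) ∨ g = (f.1, f.2 + 1) ∨ g = (f.1, f.2 - 1)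

/-! ### maximum principle -/

/-- **maximum principle**, with the values at the neighbours only -/
theorem max_le_nb {R : Finset Z2} {v : Z2 → ℝ} (hv : ∀ f ∈ R, 0 ≤ lap v f) {M : ℝ}
    (hM : ∀ f ∈ R, ∀ g, Nb f g → g ∉ R → v g ≤ M) : ∀ f ∈ R, v f ≤ M := by
  classical
  intro f0 hf0
  by_contra hlt
  push Not at hlt
  obtain ⟨f1, hf1, hmax⟩ := R.exists_max_image v ⟨f0, hf0⟩
  set a := v f1 with ha
  have haM : M < a := hlt.trans_le (hmax f0 hf0)
  obtain ⟨f, hf, hmin⟩ := (R.filter fun g => v g = a).exists_min_image (fun g => g.1)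
    ⟨f1, Finset.mem_filter.2 ⟨hf1, rfl⟩⟩
  obtain ⟨hfR, hfa⟩ := Finset.mem_filter.1 hf
  have hle : ∀ g, Nb f g → v g ≤ a := by
    intro g hg
    by_cases h : g ∈ R
    · exact hmax g h
    · exact (hM f hfR g hg h).trans haM.le
  have hlt2 : v (f.1 - 1, f.2) < a := by
    by_cases h : ((f.1 - 1, f.2) : Z2) ∈ R
    · rcases (hmax _ h).lt_or_eq with h1 | h1
      · exact h1
      · exfalso
        have := hmin _ (Finset.mem_filter.2 ⟨h, h1⟩)
        simp only at this
        omega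
    · exact (hM f hfR _ (Or.inr (Or.inl rfl)) h).trans_lt haM
  have h0 := hv f hfR
  unfold lap at h0
  rw [hfa] at h0
  have g1 := hle (f.1 + 1, f.2) (Or.inl rfl)
  have g3 := hle (f.1, f.2 + 1) (Or.inr (Or.inr (Or.inl rfl)))
  have g4 := hle (f.1, f.2 - 1) (Or.inr (Or.inr (Or.inr rfl)))
  linarith

/-- maximum principle with a bound off `R` -/
theorem max_le {R : Finset Z2} {v : Z2 → ℝ} (hv : ∀ f ∈ R, 0 ≤ lap v f) {M : ℝ}
    (hM : ∀ g, g ∉ R → v g ≤ M) (f : Z2) : v f ≤ M := by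
  by_cases h : f ∈ R
  · exact max_le_nb hv (fun _ _ g _ hg => hM g hg) f h
  · exact hM f h

/-- comparison: a subharmonic function below a superharmonic one at the outer neighbours -/
theorem comparison {R : Finset Z2} {v w : Z2 → ℝ} (hv : ∀ f ∈ R, lap w f ≤ lap v f)
    (hM : ∀ f ∈ R, ∀ g, Nb f g → g ∉ R → v g ≤ w g) : ∀ f ∈ R, v f ≤ w f := by
  intro f hf
  have h := max_le_nb (R := R) (v := fun g => v g - w g) (M := 0)
    (fun f hf => by rw [lap_sub]; linarith [hv f hf])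
    (fun f hf g hg hgR => by linarith [hM f hf g hg hgR]) f hf
  linarith

/-- bound of the absolute value of a harmonic function -/
theorem abs_le_nb {R : Finset Z2} {v : Z2 → ℝ} (hv : ∀ f ∈ R, lap v f = 0) {M : ℝ}
    (hM : ∀ f ∈ R, ∀ g, Nb f g → g ∉ R → |v g| ≤ M) : ∀ f ∈ R, |v f| ≤ M := by
  intro f hf
  rw [abs_le]
  constructor
  · have h := max_le_nb (R := R) (v := fun g => -v g) (M := M)
      (fun f hf => by rw [lap_neg, hv f hf, neg_zero])
      (fun f hf g hg hgR => by linarith [(abs_le.1 (hM f hf g hg hgR)).1]) f hf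
    linarith
  · exact max_le_nb (R := R) (fun f hf => (hv f hf).ge)
      (fun f hf g hg hgR => (abs_le.1 (hM f hf g hg hgR)).2) f hf

/-- uniqueness -/
theorem lap_unique {R : Finset Z2} {v w : Z2 → ℝ} (h1 : ∀ f ∈ R, lap v f = lap w f)
    (h2 : ∀ f, f ∉ R → v f = w f) : v = w := by
  funext f
  by_cases hf : f ∈ R
  · exact le_antisymm
      (comparison (fun f hf => (h1 f hf).ge) (fun _ _ g _ hg => (h2 g hg).le) f hf)
      (comparison (fun f hf => (h1 f hf).le) (fun _ _ g _ hg => (h2 g hg).ge) f hf)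
  · exact h2 f hf

/-! ### Dirichlet problem -/

open Classical in
/-- extension by zero -/
noncomputable def ex0 (R : Finset Z2) (g : R → ℝ) (f : Z2) : ℝ :=
  if h : f ∈ R then g ⟨f, h⟩ else 0

lemma ex0_of_notMem {R : Finset Z2} (g : R → ℝ) {f : Z2} (h : f ∉ R) : ex0 R g f = 0 := by
  unfold ex0; rw [dif_neg h]

lemma ex0_of_mem {R : Finset Z2} (g : R → ℝ) (f : R) : ex0 R g f = g f := by
  unfold ex0; rw [dif_pos f.2]

lemma ex0_add {R : Finset Z2} (g k : R → ℝ) (f : Z2) : ex0 R (g + k) f = ex0 R g f + ex0 R k f := by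
  unfold ex0
  split_ifs
  · rfl
  · simp

lemma ex0_smul {R : Finset Z2} (c : ℝ) (g : R → ℝ) (f : Z2) :
    ex0 R (c • g) f = c * ex0 R g f := by
  unfold ex0
  split_ifs
  · rfl
  · simp

/-- the Laplacian with zero boundary values -/
noncomputable def lapL (R : Finset Z2) : (R → ℝ) →ₗ[ℝ] (R → ℝ) where
  toFun g := fun f => lap (ex0 R g) f
  map_add' g k := by
    funext f
    have : ex0 R (g + k) = fun x => ex0 R g x + ex0 R k x := funext fun x => ex0_add g k x
    rw [this, lap_add]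
    rfl
  map_smul' c g := by
    funext f
    have : ex0 R (c • g) = fun x => c * ex0 R g x := funext fun x => ex0_smul c g x
    rw [this, lap_smul]
    rfl

/-- **existence** for the Poisson problem with Dirichlet boundary values -/
theorem exists_lap (R : Finset Z2) (t ρ : Z2 → ℝ) :
    ∃ v : Z2 → ℝ, (∀ f, f ∉ R → v f = t f) ∧ ∀ f ∈ R, lap v f = ρ f := by
  have hinj : Function.Injective (lapL R) := by
    intro g k hgk
    have h1 := lap_unique (R := R) (v := ex0 R g) (w := ex0 R k)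
      (fun f hf => congrFun hgk ⟨f, hf⟩)
      (fun f hf => by rw [ex0_of_notMem g hf, ex0_of_notMem k hf])
    funext f
    rw [← ex0_of_mem g f, ← ex0_of_mem k f, h1]
  have hsurj := (LinearMap.injective_iff_surjective (f := lapL R)).1 hinj
  obtain ⟨g, hg⟩ := hsurj fun f => ρ f - lap t f
  refine ⟨fun f => t f + ex0 R g f, fun f hf => by
    show t f + ex0 R g f = t f
    rw [ex0_of_notMem g hf, add_zero], fun f hf => ?_⟩
  rw [lap_add]
  have := congrFun hg ⟨f, hf⟩
  have h2 : lap (ex0 R g) f = ρ f - lap t f := this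
  rw [h2]
  ring

/-- the harmonic function with boundary values `t` -/
theorem exists_harm (R : Finset Z2) (t : Z2 → ℝ) :
    ∃ v : Z2 → ℝ, (∀ f, f ∉ R → v f = t f) ∧ ∀ f ∈ R, lap v f = 0 := exists_lap R t 0

/-! ### summation by parts -/

/-- the divergence of a field at a face (minus the flux through the sides) -/
def dvf (B : Bnd → ℝ) (f : Z2) : ℝ :=
  B (f, false) - B ((f.1, f.2 + 1), false) + B ((f.1 + 1, f.2), true) - B (f, true)

lemma dvf_dr (v : Z2 → ℝ) (f : Z2) : dvf (dr v) f = -lap v f := by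
  unfold dvf dr lf rt lap
  simp only [Bool.false_eq_true, if_false, if_true, add_sub_cancel_right]
  ring

lemma mem_bd' {U : Finset Z2} {e : Bnd} : e ∈ bd U ↔ lf e ∈ U ∨ rt e ∈ U := by
  obtain ⟨⟨a, b⟩, d⟩ := e
  unfold bd
  rw [Finset.mem_biUnion]
  constructor
  · rintro ⟨f, hf, hs⟩
    obtain ⟨f1, f2⟩ := f
    unfold sides at hs
    simp only [Finset.mem_insert, Finset.mem_singleton, Prod.mk.injEq] at hs
    rcases hs with ⟨⟨rfl, rfl⟩, rfl⟩ | ⟨⟨rfl, rfl⟩, rfl⟩ | ⟨⟨rfl, rfl⟩, rfl⟩ | ⟨⟨rfl, rfl⟩, rfl⟩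
    · exact Or.inl (by simpa [lf] using hf)
    · exact Or.inr (by simpa [rt] using hf)
    · exact Or.inr (by simpa [rt] using hf)
    · exact Or.inl (by simpa [lf] using hf)
  · rintro (h | h)
    · cases d
      · exact ⟨(a, b), by simpa [lf] using h, by simp [sides]⟩
      · exact ⟨(a - 1, b), by simpa [lf] using h, by simp [sides]⟩
    · cases d
      · exact ⟨(a, b - 1), by simpa [rt] using h, by simp [sides]⟩
      · exact ⟨(a, b), by simpa [rt] using h, by simp [sides]⟩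

/-- summation by parts over any set of bonds which contains the bonds of `R` -/
theorem sum_parts' {R : Finset Z2} {S : Finset Bnd} (hS : bd R ⊆ S) (B : Bnd → ℝ) {g : Z2 → ℝ}
    (hg : ∀ f, f ∉ R → g f = 0) : ∑ e ∈ S, B e * dr g e = ∑ f ∈ R, dvf B f * g f := by
  classical
  have h1 : ∀ e ∈ S, B e * dr g e = ∑ f ∈ R, (if lf e = f then B e * g f else 0) -
      ∑ f ∈ R, (if rt e = f then B e * g f else 0) := by
    intro e _
    rw [Finset.sum_ite_eq, Finset.sum_ite_eq]
    unfold dr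
    by_cases a : lf e ∈ R <;> by_cases b : rt e ∈ R
    · rw [if_pos a, if_pos b]; ring
    · rw [if_pos a, if_neg b, hg _ b]; ring
    · rw [if_neg a, if_pos b, hg _ a]; ring
    · rw [if_neg a, if_neg b, hg _ a, hg _ b]; ring
  rw [Finset.sum_congr rfl h1, Finset.sum_sub_distrib, Finset.sum_comm]
  rw [Finset.sum_comm (s := S) (t := R) (f := fun e f => if rt e = f then B e * g f else 0)]
  rw [← Finset.sum_sub_distrib]
  refine Finset.sum_congr rfl fun f hf => ?_
  rw [← Finset.sum_filter, ← Finset.sum_filter]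
  have e1 : S.filter (fun e => lf e = f) = {(f, false), ((f.1 + 1, f.2), true)} := by
    ext e
    obtain ⟨⟨a, b⟩, d⟩ := e
    obtain ⟨f1, f2⟩ := f
    rw [Finset.mem_filter]
    constructor
    · rintro ⟨_, h⟩
      cases d
      · unfold lf at h
        simp only [Bool.false_eq_true, if_false, Prod.mk.injEq] at h
        obtain ⟨rfl, rfl⟩ := h
        simp
      · unfold lf at h
        simp only [if_true, Prod.mk.injEq] at h
        obtain ⟨rfl, rfl⟩ := h
        simp
    · intro h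
      simp only [Finset.mem_insert, Finset.mem_singleton, Prod.mk.injEq] at h
      rcases h with ⟨⟨rfl, rfl⟩, rfl⟩ | ⟨⟨rfl, rfl⟩, rfl⟩
      · refine ⟨hS (mem_bd'.2 (Or.inl ?_)), by simp [lf]⟩
        simpa [lf] using hf
      · refine ⟨hS (mem_bd'.2 (Or.inl ?_)), by simp [lf]⟩
        simpa [lf] using hf
  have e2 : S.filter (fun e => rt e = f) = {((f.1, f.2 + 1), false), (f, true)} := by
    ext e
    obtain ⟨⟨a, b⟩, d⟩ := e
    obtain ⟨f1, f2⟩ := f
    rw [Finset.mem_filter]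
    constructor
    · rintro ⟨_, h⟩
      cases d
      · unfold rt at h
        simp only [Bool.false_eq_true, if_false, Prod.mk.injEq] at h
        obtain ⟨rfl, rfl⟩ := h
        simp
      · unfold rt at h
        simp only [if_true, Prod.mk.injEq] at h
        obtain ⟨rfl, rfl⟩ := h
        simp
    · intro h
      simp only [Finset.mem_insert, Finset.mem_singleton, Prod.mk.injEq] at h
      rcases h with ⟨⟨rfl, rfl⟩, rfl⟩ | ⟨⟨rfl, rfl⟩, rfl⟩
      · refine ⟨hS (mem_bd'.2 (Or.inr ?_)), by simp [rt]⟩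
        simpa [rt] using hf
      · refine ⟨hS (mem_bd'.2 (Or.inr ?_)), by simp [rt]⟩
        simpa [rt] using hf
  rw [e1, e2, Finset.sum_pair (by simp), Finset.sum_pair (by simp)]
  unfold dvf
  ring

/-- **summation by parts** -/
theorem sum_parts (R : Finset Z2) (B : Bnd → ℝ) {g : Z2 → ℝ} (hg : ∀ f, f ∉ R → g f = 0) :
    ∑ e ∈ bd R, B e * dr g e = ∑ f ∈ R, dvf B f * g f := sum_parts' (Finset.Subset.refl _) B hg

/-- Green's formula -/
theorem green (R : Finset Z2) (v : Z2 → ℝ) {g : Z2 → ℝ} (hg : ∀ f, f ∉ R → g f = 0) :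
    ∑ e ∈ bd R, dr v e * dr g e = -∑ f ∈ R, lap v f * g f := by
  rw [sum_parts R (dr v) hg, ← Finset.sum_neg_distrib]
  exact Finset.sum_congr rfl fun f _ => by rw [dvf_dr]; ring

/-- a harmonic function is orthogonal to the functions which vanish off `R` -/
theorem harm_orth {R : Finset Z2} {v : Z2 → ℝ} (hv : ∀ f ∈ R, lap v f = 0) {g : Z2 → ℝ}
    (hg : ∀ f, f ∉ R → g f = 0) : ∑ e ∈ bd R, dr v e * dr g e = 0 := by
  rw [green R v hg, Finset.sum_eq_zero, neg_zero]
  intro f hf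
  rw [hv f hf, zero_mul]

lemma dr_sub (v w : Z2 → ℝ) (e : Bnd) : dr (fun f => v f - w f) e = dr v e - dr w e := by
  unfold dr; ring

lemma dr_add (v w : Z2 → ℝ) (e : Bnd) : dr (fun f => v f + w f) e = dr v e + dr w e := by
  unfold dr; ring

/-- **Dirichlet principle** -/
theorem dirichlet {R : Finset Z2} {v w : Z2 → ℝ} (hv : ∀ f ∈ R, lap v f = 0)
    (hw : ∀ f, f ∉ R → w f = v f) :
    ∑ e ∈ bd R, dr w e ^ 2 = ∑ e ∈ bd R, dr v e ^ 2 +
      ∑ e ∈ bd R, dr (fun f => w f - v f) e ^ 2 := by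
  have h := harm_orth hv (g := fun f => w f - v f) (fun f hf => by rw [hw f hf, sub_self])
  have h1 : ∀ e ∈ bd R, dr w e ^ 2 = dr v e ^ 2 + dr (fun f => w f - v f) e ^ 2 +
      2 * (dr v e * dr (fun f => w f - v f) e) := by
    intro e _
    rw [dr_sub]
    ring
  rw [Finset.sum_congr rfl h1, Finset.sum_add_distrib, Finset.sum_add_distrib, ← Finset.mul_sum,
    h, mul_zero, add_zero]

theorem dirichlet_le {R : Finset Z2} {v w : Z2 → ℝ} (hv : ∀ f ∈ R, lap v f = 0)
    (hw : ∀ f, f ∉ R → w f = v f) : ∑ e ∈ bd R, dr v e ^ 2 ≤ ∑ e ∈ bd R, dr w e ^ 2 := by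
  rw [dirichlet hv hw]
  have : 0 ≤ ∑ e ∈ bd R, dr (fun f => w f - v f) e ^ 2 := Finset.sum_nonneg fun _ _ => sq_nonneg _
  linarith

/-! ### interior estimates -/

/-- the square of radius `m` around `f` -/
def Q (f : Z2) (m : ℕ) : Set Z2 := {g | |g.1 - f.1| ≤ m ∧ |g.2 - f.2| ≤ m}

lemma mem_Q {f g : Z2} {m : ℕ} : g ∈ Q f m ↔ |g.1 - f.1| ≤ m ∧ |g.2 - f.2| ≤ m := Iff.rfl

/-- the half square to the right of the origin -/
noncomputable def HR (N : ℕ) : Finset Z2 := Finset.Icc 1 (N : ℤ) ×ˢ Finset.Ioo (-(N : ℤ)) N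

lemma mem_HR {N : ℕ} {f : Z2} : f ∈ HR N ↔ (1 ≤ f.1 ∧ f.1 ≤ N) ∧ -(N : ℤ) < f.2 ∧ f.2 < N := by
  unfold HR
  rw [Finset.mem_product, Finset.mem_Icc, Finset.mem_Ioo]

/-- the barrier -/
noncomputable def bar (N : ℕ) (f : Z2) : ℝ :=
  2 * ((f.1 : ℝ) - 1 / 2) / N - (((f.1 : ℝ) - 1 / 2) / N) ^ 2 + ((f.2 : ℝ) / N) ^ 2 +
    1 / (4 * (N : ℝ) ^ 2)

lemma lap_bar {N : ℕ} (hN : 1 ≤ N) (f : Z2) : lap (bar N) f = 0 := by
  unfold lap bar
  have : (N : ℝ) ≠ 0 := by positivity
  push_cast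
  field_simp
  ring

lemma bar_anti {N : ℕ} (hN : 1 ≤ N) (k : ℤ) : 0 ≤ bar N (0, k) + bar N (1, k) := by
  unfold bar
  have : (0 : ℝ) < N := by positivity
  have e1 : 2 * (((0 : ℤ) : ℝ) - 1 / 2) / N - ((((0 : ℤ) : ℝ) - 1 / 2) / N) ^ 2 + ((k : ℝ) / N) ^ 2 +
      1 / (4 * (N : ℝ) ^ 2) + (2 * (((1 : ℤ) : ℝ) - 1 / 2) / N - ((((1 : ℤ) : ℝ) - 1 / 2) / N) ^ 2 +
      ((k : ℝ) / N) ^ 2 + 1 / (4 * (N : ℝ) ^ 2)) = 2 * ((k : ℝ) / N) ^ 2 := by
    push_cast
    field_simp
    ring
  simp only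
  rw [e1]
  positivity

lemma bar_ge {N : ℕ} (hN : 1 ≤ N) {f : Z2} (h1 : 1 ≤ f.1) (h2 : f.1 ≤ N)
    (h3 : f.2 = N ∨ f.2 = -(N : ℤ)) : 1 ≤ bar N f := by
  unfold bar
  have hN0 : (0 : ℝ) < N := by positivity
  have a1 : (1 : ℝ) ≤ f.1 := by exact_mod_cast h1
  have a2 : (f.1 : ℝ) ≤ N := by exact_mod_cast h2
  have a3 : ((f.2 : ℝ) / N) ^ 2 = 1 := by
    rcases h3 with h | h
    · rw [h]
      push_cast
      rw [div_self hN0.ne']
      norm_num
    · rw [h]
      push_cast
      rw [neg_div, div_self hN0.ne']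
      norm_num
  set z : ℝ := ((f.1 : ℝ) - 1 / 2) / N with hz
  have z0 : 0 ≤ z := div_nonneg (by linarith) hN0.le
  have z1 : z ≤ 1 := by
    rw [hz, div_le_one hN0]
    linarith
  have e1 : 2 * ((f.1 : ℝ) - 1 / 2) / N = 2 * z := by rw [hz]; ring
  rw [e1, a3]
  have : 0 ≤ 1 / (4 * (N : ℝ) ^ 2) := by positivity
  nlinarith

lemma bar_right {N : ℕ} (hN : 1 ≤ N) (k : ℤ) : 1 ≤ bar N ((N : ℤ) + 1, k) := by
  unfold bar
  have hN0 : (0 : ℝ) < N := by positivity
  have e1 : 2 * ((((N : ℤ) + 1 : ℤ) : ℝ) - 1 / 2) / N - (((((N : ℤ) + 1 : ℤ) : ℝ) - 1 / 2) / N) ^ 2 +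
      ((k : ℝ) / N) ^ 2 + 1 / (4 * (N : ℝ) ^ 2) = 1 + ((k : ℝ) / N) ^ 2 := by
    push_cast
    field_simp
    ring
  simp only
  rw [e1]
  have : 0 ≤ ((k : ℝ) / N) ^ 2 := sq_nonneg _
  linarith

/-- difference across a reflection line, at the origin -/
theorem grad_zero {N : ℕ} (hN : 1 ≤ N) {v : Z2 → ℝ} {M : ℝ}
    (hv : ∀ f ∈ Q (0, 0) N, lap v f = 0) (hM : ∀ f ∈ Q (0, 0) (N + 1), |v f| ≤ M) :
    v (1, 0) - v (0, 0) ≤ 2 * M / N := by
  have hN0 : (0 : ℝ) < N := by positivity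
  have hM0 : 0 ≤ M := (abs_nonneg _).trans (hM (0, 0) (by rw [mem_Q]; simp; positivity))
  set w : Z2 → ℝ := fun f => v f - v (1 - f.1, f.2) with hw
  have hwM : ∀ f ∈ Q (0, 0) (N + 1), (1 - f.1, f.2) ∈ Q (0, 0) (N + 1) → w f ≤ 2 * M := by
    intro f h1 h2
    have a := (abs_le.1 (hM f h1)).2
    have b := (abs_le.1 (hM _ h2)).1
    simp only [hw]
    linarith
  have hharm : ∀ f ∈ HR N, lap w f = 0 := by
    intro f hf
    rw [mem_HR] at hf
    have h1 := hv f (by rw [mem_Q]; simp only [sub_zero]; rw [abs_le, abs_le]; omega)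
    have h2 := hv (1 - f.1, f.2) (by
      rw [mem_Q]; simp only [sub_zero]; rw [abs_le, abs_le]; omega)
    unfold lap at h1 h2 ⊢
    simp only [hw] at h1 h2 ⊢
    have e1 : (1 - (f.1 + 1) : ℤ) = 1 - f.1 - 1 := by ring
    have e2 : (1 - (f.1 - 1) : ℤ) = 1 - f.1 + 1 := by ring
    rw [e1, e2]
    linarith
  -- the function which is compared: `w - 2 M bar`
  have key : ∀ f ∈ HR N, w f ≤ 2 * M * bar N f := by
    classical
    by_contra hcon
    push Not at hcon
    obtain ⟨f0, hf0, hlt⟩ := hcon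
    set d : Z2 → ℝ := fun f => w f - 2 * M * bar N f with hd
    obtain ⟨f1, hf1, hmax⟩ := (HR N).exists_max_image d ⟨f0, hf0⟩
    set a := d f1 with ha
    have ha0 : 0 < a := by
      have := hmax f0 hf0
      have h3 : 0 < d f0 := by simp only [hd]; linarith
      linarith
    obtain ⟨f, hf, hmin⟩ := ((HR N).filter fun g => d g = a).exists_max_image (fun g => g.1)
      ⟨f1, Finset.mem_filter.2 ⟨hf1, rfl⟩⟩
    obtain ⟨hfR, hfa⟩ := Finset.mem_filter.1 hf
    have hfR' := mem_HR.1 hfR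
    have hlapd : lap d f = 0 := by
      have e1 : d = fun g => w g - (2 * M) * bar N g := rfl
      rw [e1, lap_sub, lap_smul, hharm f hfR, lap_bar hN, mul_zero, sub_zero]
    -- outer points
    have hout : ∀ g : Z2, g ∈ Q (0, 0) (N + 1) → (1 - g.1, g.2) ∈ Q (0, 0) (N + 1) →
        1 ≤ bar N g → d g ≤ 0 := by
      intro g h1 h2 h3
      have h4 := hwM g h1 h2
      simp only [hd]
      nlinarith
    -- right neighbour
    have hr : d (f.1 + 1, f.2) < a := by
      by_cases h : ((f.1 + 1, f.2) : Z2) ∈ HR N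
      · rcases (hmax _ h).lt_or_eq with h1 | h1
        · exact h1
        · exfalso
          have := hmin _ (Finset.mem_filter.2 ⟨h, h1⟩)
          simp only at this
          omega
      · have h1 : f.1 = N := by
          by_contra h2
          apply h
          rw [mem_HR]
          simp only
          omega
        have h3 : d (f.1 + 1, f.2) ≤ 0 := by
          apply hout
          · rw [mem_Q]; simp only [sub_zero]; rw [abs_le, abs_le]; push_cast; omega
          · rw [mem_Q]; simp only [sub_zero]; rw [abs_le, abs_le]; push_cast; omega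
          · rw [h1]; exact bar_right hN _
        linarith
    have hud : ∀ s : ℤ, s = 1 ∨ s = -1 → d (f.1, f.2 + s) ≤ a := by
      intro s hs
      by_cases h : ((f.1, f.2 + s) : Z2) ∈ HR N
      · exact hmax _ h
      · have h1 : f.2 + s = N ∨ f.2 + s = -(N : ℤ) := by
          by_contra h2
          push Not at h2
          apply h
          rw [mem_HR]
          simp only
          omega
        have h3 : d (f.1, f.2 + s) ≤ 0 := by
          apply hout
          · rw [mem_Q]; simp only [sub_zero]; rw [abs_le, abs_le]; push_cast; omega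
          · rw [mem_Q]; simp only [sub_zero]; rw [abs_le, abs_le]; push_cast; omega
          · exact bar_ge hN hfR'.1.1 hfR'.1.2 h1
        linarith
    have hu := hud 1 (Or.inl rfl)
    have hdn := hud (-1) (Or.inr rfl)
    -- left neighbour
    have hl : d (f.1 - 1, f.2) ≤ a := by
      by_cases h : ((f.1 - 1, f.2) : Z2) ∈ HR N
      · exact hmax _ h
      · have h1 : f.1 = 1 := by
          by_contra h2
          apply h
          rw [mem_HR]
          simp only
          omega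
        -- antisymmetry
        have h2 : w (0, f.2) = -w (1, f.2) := by
          simp only [hw]
          norm_num
        have h3 := bar_anti hN f.2
        have h4 : f = (1, f.2) := Prod.ext h1 rfl
        have h5 : d (1, f.2) = a := by rw [← h4]; exact hfa
        have h6 : d (f.1 - 1, f.2) = d (0, f.2) := by rw [h1]; norm_num
        rw [h6]
        simp only [hd] at h5 ⊢
        rw [h2]
        nlinarith
    unfold lap at hlapd
    rw [hfa] at hlapd
    have e3 : (f.2 - 1 : ℤ) = f.2 + -1 := by ring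
    rw [e3] at hlapd
    linarith
  have h1 := key (1, 0) (by rw [mem_HR]; simp only; omega)
  have e1 : bar N (1, 0) = 1 / N := by
    unfold bar
    push_cast
    field_simp
    ring
  rw [e1] at h1
  have h2 : w (1, 0) = v (1, 0) - v (0, 0) := by simp [hw]
  rw [h2] at h1
  calc v (1, 0) - v (0, 0) ≤ 2 * M * (1 / N) := h1
    _ = 2 * M / N := by ring

/-- the eight symmetries: a general first difference -/
theorem grad_le {N : ℕ} (hN : 1 ≤ N) {v : Z2 → ℝ} {M : ℝ} {f : Z2}
    (hv : ∀ g ∈ Q f N, lap v g = 0) (hM : ∀ g ∈ Q f (N + 1), |v g| ≤ M) {g : Z2} (hg : Nb f g) :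
    |v g - v f| ≤ 2 * M / N := by
  -- transport by an affine map
  have main : ∀ (σ : Z2 → Z2) (hσ0 : σ (0, 0) = f) (hQ : ∀ m g, g ∈ Q (0, 0) m → σ g ∈ Q f m)
      (hl : ∀ (u : Z2 → ℝ) g, lap (fun x => u (σ x)) g = lap u (σ g)),
      |v (σ (1, 0)) - v f| ≤ 2 * M / N := by
    intro σ hσ0 hQ hl
    rw [abs_le]
    constructor
    · have h := grad_zero hN (v := fun x => -v (σ x)) (M := M)
        (fun g hg => by rw [lap_neg (fun x => v (σ x)), hl, hv _ (hQ _ _ hg), neg_zero])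
        (fun g hg => by rw [abs_neg]; exact hM _ (hQ _ _ hg))
      simp only [hσ0] at h
      linarith
    · have h := grad_zero hN (v := fun x => v (σ x)) (M := M)
        (fun g hg => by rw [hl, hv _ (hQ _ _ hg)])
        (fun g hg => hM _ (hQ _ _ hg))
      simp only [hσ0] at h
      linarith
  obtain ⟨a, b⟩ := f
  rcases hg with rfl | rfl | rfl | rfl
  · have := main (fun x => (a + x.1, b + x.2)) (by simp) (fun m g hg => by
      rw [mem_Q] at hg ⊢; simp only [sub_zero, add_sub_cancel_left] at hg ⊢; exact hg)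
      (fun u g => by unfold lap; simp only; ring_nf)
    simpa using this
  · have := main (fun x => (a - x.1, b + x.2)) (by simp) (fun m g hg => by
      rw [mem_Q] at hg ⊢
      simp only [sub_zero, add_sub_cancel_left, sub_sub_cancel_left, abs_neg] at hg ⊢; exact hg)
      (fun u g => by unfold lap; simp only; ring_nf)
    simpa using this
  · have := main (fun x => (a + x.2, b + x.1)) (by simp) (fun m g hg => by
      rw [mem_Q] at hg ⊢
      simp only [sub_zero, add_sub_cancel_left] at hg ⊢; exact ⟨hg.2, hg.1⟩)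
      (fun u g => by unfold lap; simp only; ring_nf)
    simpa using this
  · have := main (fun x => (a + x.2, b - x.1)) (by simp) (fun m g hg => by
      rw [mem_Q] at hg ⊢
      simp only [sub_zero, add_sub_cancel_left, sub_sub_cancel_left, abs_neg] at hg ⊢
      exact ⟨hg.2, hg.1⟩)
      (fun u g => by unfold lap; simp only; ring_nf)
    simpa using this

lemma Q_sub {f g : Z2} {m n k : ℕ} (hg : g ∈ Q f m) (h : m + n ≤ k) : Q g n ⊆ Q f k := by
  intro x hx
  rw [mem_Q] at hg hx ⊢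
  rw [abs_le, abs_le] at hg hx ⊢
  omega

lemma Nb_Q {f g : Z2} (h : Nb f g) : g ∈ Q f 1 := by
  obtain ⟨a, b⟩ := f
  rw [mem_Q]
  rcases h with rfl | rfl | rfl | rfl <;> simp

/-- differences of harmonic functions are harmonic -/
lemma lap_shift (v : Z2 → ℝ) (u g : Z2) : lap (fun x => v (x + u)) g = lap v (g + u) := by
  unfold lap
  simp only
  have e1 : ((g.1 + 1, g.2) : Z2) + u = ((g + u).1 + 1, (g + u).2) := by
    ext <;> simp; ring
  have e2 : ((g.1 - 1, g.2) : Z2) + u = ((g + u).1 - 1, (g + u).2) := by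
    ext <;> simp; ring
  have e3 : ((g.1, g.2 + 1) : Z2) + u = ((g + u).1, (g + u).2 + 1) := by
    ext <;> simp; ring
  have e4 : ((g.1, g.2 - 1) : Z2) + u = ((g + u).1, (g + u).2 - 1) := by
    ext <;> simp; ring
  rw [e1, e2, e3, e4]

/-- unit vectors -/
def IsU (u : Z2) : Prop := Nb 0 u

lemma IsU.nb {u : Z2} (h : IsU u) (g : Z2) : Nb g (g + u) := by
  unfold IsU Nb at h
  unfold Nb
  rcases h with rfl | rfl | rfl | rfl
  · left; ext <;> simp
  · right; left; ext <;> simp; ring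
  · right; right; left; ext <;> simp
  · right; right; right; ext <;> simp; ring

lemma IsU.q {u : Z2} (h : IsU u) (g : Z2) : g + u ∈ Q g 1 := Nb_Q (h.nb g)

/-- **first differences** -/
theorem diff1 {N : ℕ} (hN : 1 ≤ N) {v : Z2 → ℝ} {M : ℝ} {f : Z2}
    (hv : ∀ g ∈ Q f N, lap v g = 0) (hM : ∀ g ∈ Q f (N + 1), |v g| ≤ M) {u : Z2} (hu : IsU u) :
    |v (f + u) - v f| ≤ 2 * M / N := grad_le hN hv hM (hu.nb f)

/-- first differences in a whole square -/
theorem diff1_box {N m : ℕ} (hN : 1 ≤ N) {v : Z2 → ℝ} {M : ℝ} {f : Z2}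
    (hv : ∀ g ∈ Q f (m + N), lap v g = 0) (hM : ∀ g ∈ Q f (m + N + 1), |v g| ≤ M) {u : Z2}
    (hu : IsU u) : ∀ g ∈ Q f m, |v (g + u) - v g| ≤ 2 * M / N := fun g hg =>
  diff1 hN (fun x hx => hv x (Q_sub hg le_rfl hx)) (fun x hx => hM x (Q_sub hg (by omega) hx)) hu

/-- **second differences** -/
theorem diff2 {N : ℕ} (hN : 1 ≤ N) {v : Z2 → ℝ} {M : ℝ} {f : Z2}
    (hv : ∀ g ∈ Q f (2 * N + 1), lap v g = 0) (hM : ∀ g ∈ Q f (2 * N + 2), |v g| ≤ M)
    {u w : Z2} (hu : IsU u) (hw : IsU w) :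
    |(v (f + w + u) - v (f + w)) - (v (f + u) - v f)| ≤ 4 * M / N ^ 2 := by
  have hN0 : (0 : ℝ) < N := by positivity
  have h1 := diff1_box (m := N + 1) hN (v := v) (M := M) (f := f)
    (fun g hg => hv g (by
      have e : N + 1 + N = 2 * N + 1 := by ring
      rwa [e] at hg))
    (fun g hg => hM g (by
      have e : N + 1 + N + 1 = 2 * N + 2 := by ring
      rwa [e] at hg)) hu
  have h2 := diff1 hN (v := fun g => v (g + u) - v g) (M := 2 * M / N) (f := f)
    (fun g hg => by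
      rw [lap_sub (fun x => v (x + u)) v, lap_shift, hv (g + u) (Q_sub hg (by omega) (hu.q g)),
        hv g (Q_sub (f := f) (g := f) (m := 0) (by rw [mem_Q]; simp) (by omega) hg), sub_zero])
    h1 hw
  refine h2.trans (le_of_eq ?_)
  field_simp
  ring

/-- first differences in a square, constant in terms of the radius -/
theorem diff1_half {m : ℕ} (hm : 2 ≤ m) {v : Z2 → ℝ} {M : ℝ} {f : Z2}
    (hv : ∀ g ∈ Q f m, lap v g = 0) (hM : ∀ g ∈ Q f m, |v g| ≤ M) {u : Z2} (hu : IsU u) :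
    |v (f + u) - v f| ≤ 4 * M / m := by
  have hM0 : 0 ≤ M := (abs_nonneg _).trans (hM f (by rw [mem_Q]; simp))
  obtain ⟨N, rfl⟩ : ∃ N, m = N + 1 := ⟨m - 1, by omega⟩
  have h := diff1 (N := N) (by omega) (v := v) (M := M) (f := f)
    (fun g hg => hv g (Q_sub (f := f) (g := f) (m := 0) (by rw [mem_Q]; simp) (by omega) hg))
    hM hu
  refine h.trans ?_
  have hN0 : (0 : ℝ) < N := by
    have : 1 ≤ N := by omega
    positivity
  rw [div_le_div_iff₀ hN0 (by positivity)]
  push_cast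
  have : (1 : ℝ) ≤ N := by
    have : 1 ≤ N := by omega
    exact_mod_cast this
  nlinarith

/-- second differences, constant in terms of the radius -/
theorem diff2_half {m : ℕ} (hm : 4 ≤ m) {v : Z2 → ℝ} {M : ℝ} {f : Z2}
    (hv : ∀ g ∈ Q f m, lap v g = 0) (hM : ∀ g ∈ Q f m, |v g| ≤ M) {u w : Z2} (hu : IsU u)
    (hw : IsU w) :
    |(v (f + w + u) - v (f + w)) - (v (f + u) - v f)| ≤ 100 * M / m ^ 2 := by
  have hM0 : 0 ≤ M := (abs_nonneg _).trans (hM f (by rw [mem_Q]; simp))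
  obtain ⟨N, hN⟩ : ∃ N, N = (m - 2) / 2 := ⟨_, rfl⟩
  have h1 : 2 * N + 2 ≤ m := by omega
  have h2 : m ≤ 2 * N + 3 := by omega
  have h3 : 1 ≤ N := by omega
  have h := diff2 h3 (v := v) (M := M) (f := f)
    (fun g hg => hv g (Q_sub (f := f) (g := f) (m := 0) (by rw [mem_Q]; simp) (by omega) hg))
    (fun g hg => hM g (Q_sub (f := f) (g := f) (m := 0) (by rw [mem_Q]; simp) (by omega) hg)) hu hw
  refine h.trans ?_
  have a1 : (1 : ℝ) ≤ N := by exact_mod_cast h3
  have a2 : (m : ℝ) ≤ 2 * N + 3 := by exact_mod_cast h2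
  have a3 : (0 : ℝ) < m := by
    have : 0 < m := by omega
    positivity
  have a4 : (m : ℝ) ≤ 5 * N := by linarith
  rw [div_le_div_iff₀ (by positivity) (by positivity)]
  have a5 : (m : ℝ) ^ 2 ≤ 25 * N ^ 2 := by nlinarith
  nlinarith [mul_le_mul_of_nonneg_left a5 hM0]

end Vale.Agent.P159.T1.H731
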