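import Vale.Agent.P159.T1.H731.Fou
import Vale.Agent.P159.Helicity

/-!
Tiling of the free currents by blocks of side `l`.
-/

set_option linter.all false

open MeasureTheory Filter Topology

namespace Vale.Agent.P159.T1.H731

open Vale.Agent.P159 Vale.Agent.P159.H950 Vale.Agent.P159.UJ

/-- the character of a half-bond -/
noncomputable def chU (c : ℤ × ℤ) (t : HT) : Chr Ginf := grad (hu c t) (hv c t)

/-- one block with an arbitrary character -/
def BlockFac : Prop :=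
  ∀ b ε : ℝ, 0 < b → 0 < ε → ∃ (l : ℕ) (η C : ℝ), 1 ≤ l ∧ 0 < η ∧ 0 ≤ C ∧
    ∀ (p : ℤ × ℤ) (J : KR (blk p l) → ℝ), (∀ e, 0 ≤ J e ∧ J e ≤ b / 2) →
      ∀ (y : KR (blk p l) → ℝ), (∀ e, |y e| ≤ η) → ∀ (A : Chr Ginf) (x : Ginf),
        ‖avg muInf (proj (intR (blk p l)))
          (fun z => A.e z * WW J (fun e => grad (hu e.1 e.2) (hv e.1 e.2)) y z) x‖ ≤
        Real.exp ((helicity b + ε) / 4 * ∑ e, y e ^ 2 +
          C * ∑ e, ∑ e', (if e.2.1 = e'.2.1 then (y e - y e') ^ 2 else 0)) *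
          ∫ z, Real.exp (∑ e, J e * (grad (hu e.1 e.2) (hv e.1 e.2)).c
            (x + proj (intR (blk p l)) z)) ∂muInf

/-- corner of the block `k` -/
def pk (l : ℕ) (k : ℤ × ℤ) : ℤ × ℤ := ((l : ℤ) * k.1, (l : ℤ) * k.2)

lemma blk_disj {l : ℕ} (hl : 1 ≤ l) {j k : ℤ × ℤ} (hjk : j ≠ k) :
    Disjoint (blk (pk l j) l) (blk (pk l k) l) := by
  rw [Finset.disjoint_left]
  intro c h1 h2
  rw [mem_blk] at h1 h2
  unfold pk at h1 h2
  simp only at h1 h2
  apply hjk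
  have key : ∀ a b x : ℤ, (l : ℤ) * a ≤ x → x < (l : ℤ) * a + l → (l : ℤ) * b ≤ x →
      x < (l : ℤ) * b + l → a = b := by
    intro a b x g1 g2 g3 g4
    have hl' : (0 : ℤ) < l := by omega
    have g5 : (l : ℤ) * a < l * (b + 1) := by linarith
    have g6 : (l : ℤ) * b < l * (a + 1) := by linarith
    have g7 := lt_of_mul_lt_mul_left g5 hl'.le
    have g8 := lt_of_mul_lt_mul_left g6 hl'.le
    omega
  exact Prod.ext (key _ _ c.1 h1.1 h1.2.1 h2.1 h2.2.1) (key _ _ c.2 h1.2.2.1 h1.2.2.2 h2.2.2.1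
    h2.2.2.2)

/-- cells around an end point of a half-bond -/
lemma cell_of_int {R : Finset (ℤ × ℤ)} {c : ℤ × ℤ} {t : HT} (h : hu c t ∈ intR R ∨ hv c t ∈ intR R) :
    c ∈ R := by
  obtain ⟨c1, c2⟩ := c
  obtain ⟨t1, t2⟩ := t
  unfold hv hu intR at h
  simp only [Set.mem_setOf_eq] at h
  cases t1 <;> cases t2 <;> simp only [Bool.false_and, Bool.true_and, Bool.not_false, Bool.not_true,
    Bool.false_eq_true, if_true, if_false, add_zero, Prod.mk_add_mk, Prod.mk_sub_mk, sub_zero,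
    add_sub_cancel_right, zero_add] at h <;> rcases h with h | h <;> first | exact h.1 | exact h.2.1 | exact h.2.2.1 | exact h.2.2.2

lemma chU_off {l : ℕ} (hl : 1 ≤ l) {j k : ℤ × ℤ} (hjk : j ≠ k) (e : KR (blk (pk l k) l))
    (y : Ginf) : (chU e.1 e.2).c (proj (intR (blk (pk l j) l)) y) = 1 ∧
      (chU e.1 e.2).s (proj (intR (blk (pk l j) l)) y) = 0 := by
  have h1 : ∀ w, (w = hu e.1 e.2 ∨ w = hv e.1 e.2) → w ∉ intR (blk (pk l j) l) := by
    intro w hw h2
    have h3 : (e.1 : ℤ × ℤ) ∈ blk (pk l j) l := by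
      apply cell_of_int (t := e.2)
      rcases hw with rfl | rfl
      · exact Or.inl h2
      · exact Or.inr h2
    exact Finset.disjoint_left.1 (blk_disj hl hjk) h3 e.1.2
  unfold chU grad
  simp only
  rw [proj_of_notMem (h1 _ (Or.inl rfl)), proj_of_notMem (h1 _ (Or.inr rfl)), sub_zero, cosT_zero,
    sinT_zero]
  exact ⟨rfl, rfl⟩

open Classical in
/-- charges in the block -/
noncomputable def Fk (F : Finset (ℤ × ℤ)) (l : ℕ) (k : ℤ × ℤ) : Finset (ℤ × ℤ) :=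
  F.filter fun w => w ∈ intR (blk (pk l k) l)

open Classical in
/-- charges on the frame -/
noncomputable def F0 (F : Finset (ℤ × ℤ)) (l : ℕ) (K : Finset (ℤ × ℤ)) : Finset (ℤ × ℤ) :=
  F.filter fun w => ∀ k ∈ K, w ∉ intR (blk (pk l k) l)

lemma int_sub {R : Finset (ℤ × ℤ)} {w : ℤ × ℤ} (h : w ∈ intR R) : w ∈ R := h.1

lemma lin_split (F : Finset (ℤ × ℤ)) (Q : ℤ × ℤ → ℤ) {l : ℕ} (hl : 1 ≤ l) (K : Finset (ℤ × ℤ))
    (x : Ginf) : lin F Q x = lin (F0 F l K) Q x + ∑ k ∈ K, lin (Fk F l k) Q x := by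
  classical
  have h1 : ∀ w ∈ F, Q w • x w = (if ∀ k ∈ K, w ∉ intR (blk (pk l k) l) then Q w • x w else 0) +
      ∑ k ∈ K, if w ∈ intR (blk (pk l k) l) then Q w • x w else 0 := by
    intro w _
    by_cases h2 : ∀ k ∈ K, w ∉ intR (blk (pk l k) l)
    · rw [if_pos h2, Finset.sum_eq_zero, add_zero]
      intro k hk
      rw [if_neg (h2 k hk)]
    · rw [if_neg h2, zero_add]
      push Not at h2
      obtain ⟨k, hk, hw⟩ := h2
      rw [Finset.sum_eq_single k]
      · rw [if_pos hw]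
      · intro j _ hjk
        rw [if_neg]
        intro h3
        exact Finset.disjoint_left.1 (blk_disj hl hjk) (int_sub h3) (int_sub hw)
      · exact fun h3 => absurd hk h3
  unfold lin F0 Fk
  rw [Finset.sum_congr rfl h1, Finset.sum_add_distrib, Finset.sum_comm, Finset.sum_filter]
  congr 1
  exact Finset.sum_congr rfl fun k _ => (Finset.sum_filter _ _).symm

lemma chg_split (F : Finset (ℤ × ℤ)) (Q : ℤ × ℤ → ℤ) {l : ℕ} (hl : 1 ≤ l) (K : Finset (ℤ × ℤ))
    (x : Ginf) : (chg F Q).e x = (chg (F0 F l K) Q).e x * ∏ k ∈ K, (chg (Fk F l k) Q).e x := by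
  simp only [chg_e]
  rw [lin_split F Q hl K, fourier_arg_add, fourier_arg_sum]

lemma chg_inv {F : Finset (ℤ × ℤ)} {Q : ℤ × ℤ → ℤ} {R : Finset (ℤ × ℤ)}
    (h : ∀ w ∈ F, w ∉ intR R) (x y : Ginf) :
    (chg F Q).e (x + proj (intR R) y) = (chg F Q).e x := by
  rw [chg_e, chg_e, lin_add]
  have : lin F Q (proj (intR R) y) = 0 := by
    unfold lin
    refine Finset.sum_eq_zero fun w hw => ?_
    rw [proj_of_notMem (h w hw), smul_zero]
  rw [this, add_zero]

/-- the factor of one block -/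
noncomputable def rk (l : ℕ) (H C : ℝ) (y : ℤ × ℤ → HT → ℝ) (k : ℤ × ℤ) : ℝ :=
  Real.exp (H / 4 * ∑ e : KR (blk (pk l k) l), y e.1 e.2 ^ 2 +
    C * ∑ e : KR (blk (pk l k) l), ∑ e' : KR (blk (pk l k) l),
      (if e.2.1 = e'.2.1 then (y e.1 e.2 - y e'.1 e'.2) ^ 2 else 0))

/-- **tiling** -/
theorem tile {b H η C : ℝ} {l : ℕ} (hl : 1 ≤ l)
    (hbf : ∀ (p : ℤ × ℤ) (J : KR (blk p l) → ℝ), (∀ e, 0 ≤ J e ∧ J e ≤ b / 2) →
      ∀ (y : KR (blk p l) → ℝ), (∀ e, |y e| ≤ η) → ∀ (A : Chr Ginf) (x : Ginf),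
        ‖avg muInf (proj (intR (blk p l)))
          (fun z => A.e z * WW J (fun e => grad (hu e.1 e.2) (hv e.1 e.2)) y z) x‖ ≤
        Real.exp (H / 4 * ∑ e, y e ^ 2 +
          C * ∑ e, ∑ e', (if e.2.1 = e'.2.1 then (y e - y e') ^ 2 else 0)) *
          ∫ z, Real.exp (∑ e, J e * (grad (hu e.1 e.2) (hv e.1 e.2)).c
            (x + proj (intR (blk p l)) z)) ∂muInf)
    {J : ℤ × ℤ → HT → ℝ} (hJ : ∀ c t, 0 ≤ J c t ∧ J c t ≤ b / 2) {y : ℤ × ℤ → HT → ℝ}
    (hy : ∀ c t, |y c t| ≤ η) (K F : Finset (ℤ × ℤ)) (Q : ℤ × ℤ → ℤ) :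
    ‖∫ x, (chg F Q).e x * Complex.exp (∑ k ∈ K, ∑ e : KR (blk (pk l k) l),
        (J e.1 e.2 : ℂ) * (chU e.1 e.2).C (y e.1 e.2 * Complex.I) x) ∂muInf‖ ≤
      (∏ k ∈ K, rk l H C y k) * ∫ x, Real.exp (∑ k ∈ K, ∑ e : KR (blk (pk l k) l),
        J e.1 e.2 * (chU e.1 e.2).c x) ∂muInf := by
  classical
  have hWc : ∀ k, Continuous (fun x => (chg (Fk F l k) Q).e x *
      WW (fun e : KR (blk (pk l k) l) => J e.1 e.2) (fun e => chU e.1 e.2)
        (fun e => y e.1 e.2) x) := by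
    intro k
    exact (chg (Fk F l k) Q).cont_e.mul (Complex.continuous_exp.comp
      (continuous_finsetSum _ fun e _ => continuous_const.mul ((chU e.1 e.2).cont_C _)))
  have hwc : ∀ k, Continuous (fun x => Real.exp (∑ e : KR (blk (pk l k) l),
      J e.1 e.2 * (chU e.1 e.2).c x)) := by
    intro k
    exact Real.continuous_exp.comp (continuous_finsetSum _ fun e _ =>
      continuous_const.mul (chU e.1 e.2).cont_c)
  have hit := block_iter muInf (fun k => (proj (intR (blk (pk l k) l)) : Ginf → Ginf))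
    (fun k => proj_cont _)
    (fun k x => (chg (Fk F l k) Q).e x *
      WW (fun e : KR (blk (pk l k) l) => J e.1 e.2) (fun e => chU e.1 e.2)
        (fun e => y e.1 e.2) x)
    (fun k x => Real.exp (∑ e : KR (blk (pk l k) l), J e.1 e.2 * (chU e.1 e.2).c x)) hWc hwc
    (fun k x => (Real.exp_pos _).le) (fun k => rk l H C y k) (fun k => (Real.exp_pos _).le)
    (by
      intro j k hjk x z
      congr 1
      · exact chg_inv (fun w hw h3 => by
          have hw' := (Finset.mem_filter.1 hw).2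
          exact Finset.disjoint_left.1 (blk_disj hl hjk) (int_sub h3) (int_sub hw')) _ _
      · unfold WW Chr.C
        congr 1
        refine Finset.sum_congr rfl fun e _ => ?_
        obtain ⟨h3, h4⟩ := chU_off hl hjk e z
        rw [(chU e.1 e.2).c_add, (chU e.1 e.2).s_add, h3, h4]
        simp)
    (by
      intro j k hjk x z
      congr 1
      refine Finset.sum_congr rfl fun e _ => ?_
      obtain ⟨h3, h4⟩ := chU_off hl hjk e z
      rw [(chU e.1 e.2).c_add, h3, h4]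
      simp)
    (fun j k x y z => by abel)
    (fun k x => hbf (pk l k) (fun e => J e.1 e.2) (fun e => hJ _ _) (fun e => y e.1 e.2)
      (fun e => hy _ _) (chg (Fk F l k) Q) x)
    K (chg (F0 F l K) Q).e (chg (F0 F l K) Q).cont_e
    (by
      intro k hk x z
      have hF0 : ∀ w ∈ F0 F l K, w ∉ intR (blk (pk l k) l) := fun w hw => by
        unfold F0 at hw
        exact (Finset.mem_filter.1 hw).2 k hk
      exact chg_inv hF0 _ _)
  have e1 : ∀ x, (chg (F0 F l K) Q).e x * ∏ k ∈ K, ((chg (Fk F l k) Q).e x *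
      WW (fun e : KR (blk (pk l k) l) => J e.1 e.2) (fun e => chU e.1 e.2)
        (fun e => y e.1 e.2) x) =
      (chg F Q).e x * Complex.exp (∑ k ∈ K, ∑ e : KR (blk (pk l k) l),
        (J e.1 e.2 : ℂ) * (chU e.1 e.2).C (y e.1 e.2 * Complex.I) x) := by
    intro x
    rw [Finset.prod_mul_distrib, ← mul_assoc, ← chg_split F Q hl K, Complex.exp_sum]
    rfl
  have e2 : ∀ x, ‖(chg (F0 F l K) Q).e x‖ * ∏ k ∈ K, Real.exp (∑ e : KR (blk (pk l k) l),
      J e.1 e.2 * (chU e.1 e.2).c x) = Real.exp (∑ k ∈ K, ∑ e : KR (blk (pk l k) l),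
        J e.1 e.2 * (chU e.1 e.2).c x) := by
    intro x
    rw [Chr.norm_e, one_mul, Real.exp_sum]
  simp_rw [e1, e2] at hit
  exact hit

end Vale.Agent.P159.T1.H731
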