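import Vale.Agent.P159.T1.H598.R1

/-!
The ratio `S_Γ(B, m) / S_Γ(0, 0)` of the sums over the currents `n ≡ m` modulo the subgroup `Γ`
with real tilt `B` increases with `Γ`, for every `m`.
-/

open Filter Topology

namespace Vale.Agent.P159.T1.H731

open Vale.Agent.P159 Vale.Agent.P159.H353 Vale.Agent.P159.T1.H934

section abs

variable {E : Type} [Fintype E]

/-- product weight with tilt -/
noncomputable def wt (J B : E → ℝ) (n : E → ℤ) : ℝ :=
  (∏ e, wI (J e) (n e)) * Real.exp (∑ e, B e * (n e : ℝ))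

lemma wt_nonneg {J : E → ℝ} (hJ : ∀ e, 0 ≤ J e) (B : E → ℝ) (n : E → ℤ) : 0 ≤ wt J B n :=
  mul_nonneg (Finset.prod_nonneg fun e _ => wI_nonneg (hJ e) _) (Real.exp_pos _).le

lemma wt_summable {J : E → ℝ} (hJ : ∀ e, 0 ≤ J e) (B : E → ℝ) : Summable (wt J B) := by
  have h := summable_growth (D := AddMonoidHom.id (E → ℤ)) Function.injective_id hJ B (C := 1)
    (f := fun n => Real.exp (∑ e, B e * (n e : ℝ))) (fun n => by
      rw [abs_of_pos (Real.exp_pos _), one_mul]
      exact Real.exp_le_exp.2 (le_abs_self _))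
  exact h.of_abs

open Classical in
/-- the sum over the currents which are `≡ m` modulo `Γ` -/
noncomputable def SG (J : E → ℝ) (Γ : AddSubgroup (E → ℤ)) (B : E → ℝ) (m : E → ℤ) : ℝ :=
  ∑' n : E → ℤ, if n - m ∈ Γ then wt J B n else 0

open Classical in
lemma SG_summable {J : E → ℝ} (hJ : ∀ e, 0 ≤ J e) (Γ : AddSubgroup (E → ℤ)) (B : E → ℝ)
    (m : E → ℤ) : Summable fun n : E → ℤ => if n - m ∈ Γ then wt J B n else 0 := by
  refine Summable.of_nonneg_of_le (fun n => ?_) (fun n => ?_) (wt_summable hJ B)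
  · split_ifs
    · exact wt_nonneg hJ B n
    · exact le_rfl
  · split_ifs
    · exact le_rfl
    · exact wt_nonneg hJ B n

lemma SG_nonneg {J : E → ℝ} (hJ : ∀ e, 0 ≤ J e) (Γ : AddSubgroup (E → ℤ)) (B : E → ℝ)
    (m : E → ℤ) : 0 ≤ SG J Γ B m := by
  classical
  refine tsum_nonneg fun n => ?_
  split_ifs
  · exact wt_nonneg hJ B n
  · exact le_rfl

lemma SG_zero_neg (J : E → ℝ) (Γ : AddSubgroup (E → ℤ)) (m : E → ℤ) :
    SG J Γ 0 (-m) = SG J Γ 0 m := by
  classical
  unfold SG
  rw [← (Equiv.neg (E → ℤ)).tsum_eq]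
  refine tsum_congr fun n => ?_
  show (if -n - -m ∈ Γ then wt J 0 (-n) else 0) = _
  have e1 : -n - -m = -(n - m) := by abel
  have e2 : wt J 0 (-n) = wt J 0 n := by
    unfold wt
    simp [wI_neg]
  rw [e1, neg_mem_iff, e2]

/-- the two replica inequality for the classes modulo `Γ` -/
theorem two_rep {J : E → ℝ} (hJ : ∀ e, 0 ≤ J e) (Γ : AddSubgroup (E → ℤ))
    (h2 : ∀ n, n + n ∈ Γ → n ∈ Γ) (B : E → ℝ) (m k : E → ℤ) :
    2 * (SG J Γ B m * SG J Γ 0 k) ≤ (SG J Γ B (m - k) + SG J Γ B (m + k)) * SG J Γ 0 0 := by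
  classical
  set D : (E → ℤ) →+ (E → ℤ) := AddMonoidHom.id (E → ℤ) with hD
  have hDi : Function.Injective D := Function.injective_id
  set g : (E → ℤ) → ℝ := fun h => ((if h - (m - k) ∈ Γ then 1 else 0) -
    (if h - (m + k) ∈ Γ then 1 else 0)) * Real.exp (1 / 2 * ∑ e, B e * (h e : ℝ)) with hg
  have hgb : ∀ h, |g h| ≤ 1 * gw (Real.exp (∑ e, |B e|)) (D h) := by
    intro h
    have h1 : |((if h - (m - k) ∈ Γ then (1 : ℝ) else 0) -
        (if h - (m + k) ∈ Γ then 1 else 0))| ≤ 1 := by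
      split_ifs <;> norm_num
    have h3 := exp_ln_le D B h
    have h4 : Real.exp (1 / 2 * ∑ e, B e * (h e : ℝ)) ≤ Real.exp |ln D B h| := by
      apply Real.exp_le_exp.2
      have h5 : ln D B h = ∑ e, B e * (h e : ℝ) := rfl
      rw [h5]
      have h6 := le_abs_self (∑ e, B e * (h e : ℝ))
      have h7 := abs_nonneg (∑ e, B e * (h e : ℝ))
      linarith
    simp only [hg]
    rw [abs_mul, abs_of_pos (Real.exp_pos _)]
    exact mul_le_mul h1 (h4.trans h3) (Real.exp_pos _).le zero_le_one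
  have h0 := dup_gen (D := D) hDi hJ (K := 0) (fun _ => le_rfl) (one_le_rho B) hgb 0 (by simp)
  have s : ∀ (B' : E → ℝ) (p : E → ℤ), Summable fun n : E → ℤ =>
      |(if n - p ∈ Γ then wt J B' n else 0)| := fun B' p => (SG_summable hJ Γ B' p).abs
  have hs := (((hasSum_mul_pair (s B (m - k)) (s 0 0)).add
    (hasSum_mul_pair (s B (m + k)) (s 0 0))).sub
    (hasSum_mul_pair (s B m) (s 0 (-k)))).sub (hasSum_mul_pair (s B m) (s 0 k))
  have e : ∀ x : (E → ℤ) × (E → ℤ), (W D (J + 0) x.1 * W D J x.2 +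
      0 * (W D J x.1 * W D (J + 0) x.2)) * (g (x.1 + x.2) * g (x.1 - x.2)) =
      (if x.1 - (m - k) ∈ Γ then wt J B x.1 else 0) * (if x.2 - 0 ∈ Γ then wt J 0 x.2 else 0) +
      (if x.1 - (m + k) ∈ Γ then wt J B x.1 else 0) * (if x.2 - 0 ∈ Γ then wt J 0 x.2 else 0) -
      (if x.1 - m ∈ Γ then wt J B x.1 else 0) * (if x.2 - (-k) ∈ Γ then wt J 0 x.2 else 0) -
      (if x.1 - m ∈ Γ then wt J B x.1 else 0) * (if x.2 - k ∈ Γ then wt J 0 x.2 else 0) := by
    rintro ⟨x, y⟩
    simp only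
    have w1 : W D (J + 0) x = ∏ e, wI (J e) (x e) := by
      unfold W
      simp [hD]
    have w2 : W D J y = ∏ e, wI (J e) (y e) := rfl
    have hexp : Real.exp (1 / 2 * ∑ e, B e * ((x + y) e : ℝ)) *
        Real.exp (1 / 2 * ∑ e, B e * ((x - y) e : ℝ)) = Real.exp (∑ e, B e * (x e : ℝ)) := by
      rw [← Real.exp_add, ← mul_add, ← Finset.sum_add_distrib]
      congr 1
      rw [Finset.mul_sum]
      refine Finset.sum_congr rfl fun e _ => ?_
      simp only [Pi.add_apply, Pi.sub_apply]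
      push_cast
      ring
    have hw0 : wt J 0 y = ∏ e, wI (J e) (y e) := by
      unfold wt
      simp
    -- the combinatorial identity
    obtain ⟨a, ha⟩ : ∃ a : Prop, a = (x + y - (m - k) ∈ Γ) := ⟨_, rfl⟩
    have key : ((if x + y - (m - k) ∈ Γ then (1 : ℝ) else 0) -
        (if x + y - (m + k) ∈ Γ then 1 else 0)) *
        ((if x - y - (m - k) ∈ Γ then (1 : ℝ) else 0) -
        (if x - y - (m + k) ∈ Γ then 1 else 0)) =
        (if x - (m - k) ∈ Γ then (1 : ℝ) else 0) * (if y - 0 ∈ Γ then 1 else 0) +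
        (if x - (m + k) ∈ Γ then (1 : ℝ) else 0) * (if y - 0 ∈ Γ then 1 else 0) -
        (if x - m ∈ Γ then (1 : ℝ) else 0) * (if y - (-k) ∈ Γ then 1 else 0) -
        (if x - m ∈ Γ then (1 : ℝ) else 0) * (if y - k ∈ Γ then 1 else 0) := by
      have p1 : (x + y - (m - k) ∈ Γ ∧ x - y - (m - k) ∈ Γ) ↔
          (x - (m - k) ∈ Γ ∧ y - 0 ∈ Γ) := by
        constructor
        · rintro ⟨h3, h4⟩
          have h5 : y ∈ Γ := h2 y (by
            have := Γ.sub_mem h3 h4
            have e5 : x + y - (m - k) - (x - y - (m - k)) = y + y := by abel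
            rwa [e5] at this)
          refine ⟨?_, by rwa [sub_zero]⟩
          have := Γ.sub_mem h3 h5
          have e5 : x + y - (m - k) - y = x - (m - k) := by abel
          rwa [e5] at this
        · rintro ⟨h3, h4⟩
          rw [sub_zero] at h4
          constructor
          · have := Γ.add_mem h3 h4
            have e5 : x - (m - k) + y = x + y - (m - k) := by abel
            rwa [e5] at this
          · have := Γ.sub_mem h3 h4
            have e5 : x - (m - k) - y = x - y - (m - k) := by abel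
            rwa [e5] at this
      have p2 : (x + y - (m + k) ∈ Γ ∧ x - y - (m + k) ∈ Γ) ↔
          (x - (m + k) ∈ Γ ∧ y - 0 ∈ Γ) := by
        constructor
        · rintro ⟨h3, h4⟩
          have h5 : y ∈ Γ := h2 y (by
            have := Γ.sub_mem h3 h4
            have e5 : x + y - (m + k) - (x - y - (m + k)) = y + y := by abel
            rwa [e5] at this)
          refine ⟨?_, by rwa [sub_zero]⟩
          have := Γ.sub_mem h3 h5
          have e5 : x + y - (m + k) - y = x - (m + k) := by abel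
          rwa [e5] at this
        · rintro ⟨h3, h4⟩
          rw [sub_zero] at h4
          constructor
          · have := Γ.add_mem h3 h4
            have e5 : x - (m + k) + y = x + y - (m + k) := by abel
            rwa [e5] at this
          · have := Γ.sub_mem h3 h4
            have e5 : x - (m + k) - y = x - y - (m + k) := by abel
            rwa [e5] at this
      have p3 : (x + y - (m - k) ∈ Γ ∧ x - y - (m + k) ∈ Γ) ↔
          (x - m ∈ Γ ∧ y - (-k) ∈ Γ) := by
        constructor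
        · rintro ⟨h3, h4⟩
          have h5 : y - (-k) ∈ Γ := h2 _ (by
            have := Γ.sub_mem h3 h4
            have e5 : x + y - (m - k) - (x - y - (m + k)) = (y - -k) + (y - -k) := by abel
            rwa [e5] at this)
          refine ⟨?_, h5⟩
          have := Γ.sub_mem h3 h5
          have e5 : x + y - (m - k) - (y - -k) = x - m := by abel
          rwa [e5] at this
        · rintro ⟨h3, h4⟩
          constructor
          · have := Γ.add_mem h3 h4
            have e5 : x - m + (y - -k) = x + y - (m - k) := by abel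
            rwa [e5] at this
          · have := Γ.sub_mem h3 h4
            have e5 : x - m - (y - -k) = x - y - (m + k) := by abel
            rwa [e5] at this
      have p4 : (x + y - (m + k) ∈ Γ ∧ x - y - (m - k) ∈ Γ) ↔
          (x - m ∈ Γ ∧ y - k ∈ Γ) := by
        constructor
        · rintro ⟨h3, h4⟩
          have h5 : y - k ∈ Γ := h2 _ (by
            have := Γ.sub_mem h3 h4
            have e5 : x + y - (m + k) - (x - y - (m - k)) = (y - k) + (y - k) := by abel
            rwa [e5] at this)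
          refine ⟨?_, h5⟩
          have := Γ.sub_mem h3 h5
          have e5 : x + y - (m + k) - (y - k) = x - m := by abel
          rwa [e5] at this
        · rintro ⟨h3, h4⟩
          constructor
          · have := Γ.add_mem h3 h4
            have e5 : x - m + (y - k) = x + y - (m + k) := by abel
            rwa [e5] at this
          · have := Γ.sub_mem h3 h4
            have e5 : x - m - (y - k) = x - y - (m - k) := by abel
            rwa [e5] at this
      have im : ∀ (P Q : Prop), (if P then (1 : ℝ) else 0) * (if Q then 1 else 0) =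
          if P ∧ Q then 1 else 0 := by
        intro P Q
        by_cases hP : P <;> by_cases hQ : Q <;> simp [hP, hQ]
      rw [sub_mul, mul_sub, mul_sub, im, im, im, im, im, im, im, im]
      simp only [p1, p2, p3, p4]
      ring
    have t1 : ∀ (P : Prop) (c : ℝ), (if P then c else 0) = (if P then (1 : ℝ) else 0) * c := by
      intro P c
      by_cases hP : P <;> simp [hP]
    rw [t1 (x - (m - k) ∈ Γ) (wt J B x), t1 (x - (m + k) ∈ Γ) (wt J B x),
      t1 (x - m ∈ Γ) (wt J B x), t1 (y - 0 ∈ Γ) (wt J 0 y), t1 (y - -k ∈ Γ) (wt J 0 y),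
      t1 (y - k ∈ Γ) (wt J 0 y), hw0, w1, w2]
    simp only [hg]
    unfold wt
    linear_combination ((∏ e, wI (J e) (x e)) * ∏ e, wI (J e) (y e)) *
      Real.exp (∑ e, B e * (x e : ℝ)) * key +
      ((∏ e, wI (J e) (x e)) * ∏ e, wI (J e) (y e)) *
      (((if x + y - (m - k) ∈ Γ then (1 : ℝ) else 0) -
        (if x + y - (m + k) ∈ Γ then 1 else 0)) *
        ((if x - y - (m - k) ∈ Γ then (1 : ℝ) else 0) -
        (if x - y - (m + k) ∈ Γ then 1 else 0))) * hexp
  rw [tsum_congr e, hs.tsum_eq] at h0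
  change 0 ≤ SG J Γ B (m - k) * SG J Γ 0 0 + SG J Γ B (m + k) * SG J Γ 0 0 -
    SG J Γ B m * SG J Γ 0 (-k) - SG J Γ B m * SG J Γ 0 k at h0
  rw [SG_zero_neg] at h0
  linarith

/-- the sum over the classes of `Γ'` modulo `Γ` -/
theorem SG_cosets {J : E → ℝ} (hJ : ∀ e, 0 ≤ J e) {Γ Γ' : AddSubgroup (E → ℤ)} (hΓ : Γ ≤ Γ')
    (B : E → ℝ) (m : E → ℤ) (r : Γ' ⧸ Γ.addSubgroupOf Γ' → (E → ℤ))
    (hr : ∀ q, ∃ γ : Γ', (γ : E → ℤ) = r q ∧ (QuotientAddGroup.mk γ : Γ' ⧸ Γ.addSubgroupOf Γ') = q) :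
    HasSum (fun q => SG J Γ B (m + r q)) (SG J Γ' B m) := by
  classical
  have hr' : ∀ q, r q ∈ Γ' := fun q => by
    obtain ⟨γ, h1, _⟩ := hr q
    rw [← h1]
    exact γ.2
  -- exactly one class
  have hu : ∀ n : E → ℤ, n - m ∈ Γ' → ∃ q0, ∀ q, (n - (m + r q) ∈ Γ ↔ q = q0) := by
    intro n hn
    refine ⟨QuotientAddGroup.mk ⟨n - m, hn⟩, fun q => ?_⟩
    obtain ⟨γ, h1, h3⟩ := hr q
    rw [← h1, ← h3, QuotientAddGroup.eq, AddSubgroup.mem_addSubgroupOf]
    have e1 : ((-γ + (⟨n - m, hn⟩ : Γ') : Γ') : E → ℤ) = n - (m + (γ : E → ℤ)) := by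
      push_cast
      abel
    rw [e1]
  have hpt : ∀ n : E → ℤ, HasSum (fun q => if n - (m + r q) ∈ Γ then wt J B n else 0)
      (if n - m ∈ Γ' then wt J B n else 0) := by
    intro n
    by_cases hn : n - m ∈ Γ'
    · obtain ⟨q0, hq0⟩ := hu n hn
      rw [if_pos hn]
      have e1 : (fun q => if n - (m + r q) ∈ Γ then wt J B n else 0) =
          fun q => if q = q0 then wt J B n else 0 := by
        funext q
        simp only [hq0 q]
      rw [e1]
      exact hasSum_ite_eq q0 _
    · rw [if_neg hn]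
      have e1 : (fun q => if n - (m + r q) ∈ Γ then wt J B n else 0) = fun _ => 0 := by
        funext q
        rw [if_neg]
        intro h1
        apply hn
        have := Γ'.add_mem (hΓ h1) (hr' q)
        have e5 : n - (m + r q) + r q = n - m := by abel
        rwa [e5] at this
      rw [e1]
      exact hasSum_zero
  have hS : Summable fun p : (E → ℤ) × (Γ' ⧸ Γ.addSubgroupOf Γ') =>
      if p.1 - (m + r p.2) ∈ Γ then wt J B p.1 else 0 := by
    rw [summable_prod_of_nonneg (fun p => by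
      simp only [Pi.zero_apply]
      split_ifs
      · exact wt_nonneg hJ B _
      · exact le_rfl)]
    refine ⟨fun n => (hpt n).summable, ?_⟩
    refine (SG_summable hJ Γ' B m).congr fun n => ?_
    exact (hpt n).tsum_eq.symm
  have h1 := hS.hasSum.prod_fiberwise (fun n => hpt n)
  have h3 : Summable fun p : (Γ' ⧸ Γ.addSubgroupOf Γ') × (E → ℤ) =>
      if p.2 - (m + r p.1) ∈ Γ then wt J B p.2 else 0 := hS.prod_symm
  have h4 := h3.hasSum.prod_fiberwise (fun q => (SG_summable hJ Γ B (m + r q)).hasSum)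
  have e1 : (∑' p : (Γ' ⧸ Γ.addSubgroupOf Γ') × (E → ℤ),
      if p.2 - (m + r p.1) ∈ Γ then wt J B p.2 else 0) =
      ∑' p : (E → ℤ) × (Γ' ⧸ Γ.addSubgroupOf Γ'),
      if p.1 - (m + r p.2) ∈ Γ then wt J B p.1 else 0 :=
    (Equiv.prodComm _ _).tsum_eq
      (fun p : (E → ℤ) × (Γ' ⧸ Γ.addSubgroupOf Γ') =>
        if p.1 - (m + r p.2) ∈ Γ then wt J B p.1 else 0)
  have e2 := h1.tsum_eq
  rw [e1, ← e2] at h4
  exact h4

/-- **The ratio increases with the subgroup.** -/
theorem SG_mono {J : E → ℝ} (hJ : ∀ e, 0 ≤ J e) {Γ Γ' : AddSubgroup (E → ℤ)} (hΓ : Γ ≤ Γ')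
    (h2 : ∀ n, n + n ∈ Γ → n ∈ Γ) (B : E → ℝ) (m : E → ℤ) :
    SG J Γ B m * SG J Γ' 0 0 ≤ SG J Γ' B m * SG J Γ 0 0 := by
  classical
  set r : Γ' ⧸ Γ.addSubgroupOf Γ' → (E → ℤ) := fun q => ((Quotient.out q : Γ') : E → ℤ) with hr
  have hr1 : ∀ q, ∃ γ : Γ', (γ : E → ℤ) = r q ∧
      (QuotientAddGroup.mk γ : Γ' ⧸ Γ.addSubgroupOf Γ') = q := fun q =>
    ⟨Quotient.out q, rfl, QuotientAddGroup.out_eq' q⟩
  have a1 := SG_cosets hJ hΓ B m r hr1
  have a0 := SG_cosets hJ hΓ 0 0 r hr1
  -- the classes `-r q`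
  have a2 : HasSum (fun q => SG J Γ B (m - r q)) (SG J Γ' B m) := by
    have h1 := SG_cosets hJ hΓ B m (fun q => -r (-q)) (fun q => by
      obtain ⟨γ, h3, h4⟩ := hr1 (-q)
      refine ⟨-γ, by push_cast; rw [h3], ?_⟩
      rw [QuotientAddGroup.mk_neg, h4, neg_neg])
    have h3 := (Equiv.neg (Γ' ⧸ Γ.addSubgroupOf Γ')).hasSum_iff.2 h1
    have e1 : ((fun q => SG J Γ B (m + -r (-q))) ∘ (Equiv.neg (Γ' ⧸ Γ.addSubgroupOf Γ'))) =
        fun q => SG J Γ B (m - r q) := by
      funext q
      show SG J Γ B (m + -r (- -q)) = _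
      rw [neg_neg, sub_eq_add_neg]
    rwa [e1] at h3
  have h3 := (a0.mul_left (2 * SG J Γ B m))
  have h4 := ((a2.add a1).mul_right (SG J Γ 0 0))
  have h5 := hasSum_le (fun q => by
    have h6 := two_rep hJ Γ h2 B m (r q)
    show 2 * SG J Γ B m * SG J Γ 0 (0 + r q) ≤ _
    rw [zero_add]
    linarith) h3 h4
  linarith

end abs

end Vale.Agent.P159.T1.H731
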