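import Vale.Agent.P159.T1.H731.U
import Vale.Agent.P159.T1.H568.UBlock

/-!
`StmtU` without hypotheses.
-/

namespace Vale.Agent.P159.T1.H731

/-- the bound of one block -/
theorem blockFac : BlockFac := H568.block_fac

/-- **the uniform upper bound** -/
theorem stmtU_full : D.StmtU := stmtU blockFac

end Vale.Agent.P159.T1.H731
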