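import Vale.Agent.P159.T1.H130.UJ
import Vale.Agent.P159.T1.H532.Var

/-!
Monotonicity of the exponential moments in the couplings, in every sector and for every real
field;
application to heights.
-/

open Filter Topology

namespace Vale.Agent.P159.T1.H731

open Vale.Agent.P159 Vale.Agent.P159.H353 Vale.Agent.P159.T1.H934
open Vale.Agent.P159.T1.D

section monoJ

variable {E : Type} [Fintype E]

/-- the currents `(n, 0)` with `n ∈ Γ` -/
def G1 (Γ : AddSubgroup (E → ℤ)) : AddSubgroup (E ⊕ E → ℤ) where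
  carrier := {n | (fun e => n (Sum.inl e)) ∈ Γ ∧ ∀ e, n (Sum.inr e) = 0}
  zero_mem' := ⟨Γ.zero_mem, fun _ => rfl⟩
  add_mem' := by
    rintro a b ⟨h1, h2⟩ ⟨h3, h4⟩
    exact ⟨Γ.add_mem h1 h3, fun e => by rw [Pi.add_apply, h2, h4, add_zero]⟩
  neg_mem' := by
    rintro a ⟨h1, h2⟩
    exact ⟨Γ.neg_mem h1, fun e => by rw [Pi.neg_apply, h2, neg_zero]⟩

/-- the currents `(n, k)` with `n + k ∈ Γ` -/
def G2 (Γ : AddSubgroup (E → ℤ)) : AddSubgroup (E ⊕ E → ℤ) where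
  carrier := {n | (fun e => n (Sum.inl e) + n (Sum.inr e)) ∈ Γ}
  zero_mem' := by
    show (fun _ => (0 : ℤ) + 0) ∈ Γ
    simp only [add_zero]
    exact Γ.zero_mem
  add_mem' := by
    intro a b h1 h3
    have h := Γ.add_mem h1 h3
    show (fun e => (a + b) (Sum.inl e) + (a + b) (Sum.inr e)) ∈ Γ
    have e1 : (fun e => (a + b) (Sum.inl e) + (a + b) (Sum.inr e)) =
        (fun e => a (Sum.inl e) + a (Sum.inr e)) + fun e => b (Sum.inl e) + b (Sum.inr e) := by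
      funext e
      simp only [Pi.add_apply]
      ring
    rw [e1]
    exact h
  neg_mem' := by
    intro a h1
    have h := Γ.neg_mem h1
    show (fun e => (-a) (Sum.inl e) + (-a) (Sum.inr e)) ∈ Γ
    have e1 : (fun e => (-a) (Sum.inl e) + (-a) (Sum.inr e)) =
        -(fun e => a (Sum.inl e) + a (Sum.inr e)) := by
      funext e
      simp only [Pi.neg_apply]
      ring
    rw [e1]
    exact h

omit [Fintype E] in
lemma G1_le (Γ : AddSubgroup (E → ℤ)) : G1 Γ ≤ G2 Γ := by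
  rintro n ⟨h1, h2⟩
  show (fun e => n (Sum.inl e) + n (Sum.inr e)) ∈ Γ
  simp only [h2, add_zero]
  exact h1

omit [Fintype E] in
lemma G1_half {Γ : AddSubgroup (E → ℤ)} (h2 : ∀ n, n + n ∈ Γ → n ∈ Γ) (n : E ⊕ E → ℤ)
    (hn : n + n ∈ G1 Γ) : n ∈ G1 Γ := by
  obtain ⟨h3, h4⟩ := hn
  refine ⟨h2 _ h3, fun e => ?_⟩
  have := h4 e
  rw [Pi.add_apply] at this
  omega

lemma wt_elim (J K B : E → ℝ) (n : E ⊕ E → ℤ) :
    wt (Sum.elim J K) (Sum.elim B B) n =
      (∏ e, wI (J e) (n (Sum.inl e))) * (∏ e, wI (K e) (n (Sum.inr e))) *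
        Real.exp (∑ e, B e * ((n (Sum.inl e) + n (Sum.inr e) : ℤ) : ℝ)) := by
  unfold wt
  rw [Fintype.prod_sum_type, Fintype.sum_sum_type]
  simp only [Sum.elim_inl, Sum.elim_inr]
  rw [← Finset.sum_add_distrib]
  congr 2
  refine Finset.sum_congr rfl fun e _ => ?_
  push_cast
  ring

lemma SG_G1 (J K : E → ℝ) (Γ : AddSubgroup (E → ℤ)) (B : E → ℝ) (m : E → ℤ) :
    SG (Sum.elim J K) (G1 Γ) (Sum.elim B B) (Sum.elim m 0) = SG J Γ B m * ∏ e, wI (K e) 0 := by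
  classical
  set i : (E → ℤ) → (E ⊕ E → ℤ) := fun n => Sum.elim n 0 with hi
  have hinj : Function.Injective i := by
    intro a b hab
    funext e
    exact congrFun hab (Sum.inl e)
  unfold SG
  rw [← hinj.tsum_eq, ← tsum_mul_right]
  · refine tsum_congr fun n => ?_
    have h1 : (i n - Sum.elim m 0 ∈ G1 Γ) ↔ n - m ∈ Γ := by
      constructor
      · rintro ⟨h, _⟩
        exact h
      · intro h
        refine ⟨h, fun e => ?_⟩
        simp [hi]
    by_cases h2 : n - m ∈ Γ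
    · rw [if_pos (h1.2 h2), if_pos h2, wt_elim]
      unfold wt
      simp only [hi, Sum.elim_inl, Sum.elim_inr, Pi.zero_apply, add_zero]
      ring
    · rw [if_neg (fun h => h2 (h1.1 h)), if_neg h2, zero_mul]
  · intro n hn
    rw [Function.mem_support] at hn
    by_contra h1
    apply hn
    rw [if_neg]
    rintro ⟨_, h⟩
    apply h1
    refine ⟨fun e => n (Sum.inl e), ?_⟩
    funext e
    rcases e with e | e
    · rfl
    · have h3 := h e
      rw [Pi.sub_apply] at h3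
      simp only [Sum.elim_inr, Pi.zero_apply, sub_zero] at h3
      simp only [hi, Sum.elim_inr, Pi.zero_apply]
      exact h3.symm

/-- `(n, k) ↔ (n + k, n)` -/
def eqv : (E → ℤ) × (E → ℤ) ≃ (E ⊕ E → ℤ) where
  toFun p := Sum.elim p.2 (p.1 - p.2)
  invFun n := (fun e => n (Sum.inl e) + n (Sum.inr e), fun e => n (Sum.inl e))
  left_inv p := by
    refine Prod.ext ?_ ?_
    · funext e
      simp
    · funext e
      simp
  right_inv n := by
    funext e
    rcases e with e | e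
    · simp
    · simp

lemma SG_G2 {J K : E → ℝ} (hJ : ∀ e, 0 ≤ J e) (hK : ∀ e, 0 ≤ K e) (Γ : AddSubgroup (E → ℤ))
    (B : E → ℝ) (m : E → ℤ) :
    SG (Sum.elim J K) (G2 Γ) (Sum.elim B B) (Sum.elim m 0) = SG (fun e => J e + K e) Γ B m := by
  classical
  have hJK : ∀ e, 0 ≤ (Sum.elim J K : E ⊕ E → ℝ) e := by
    rintro (e | e)
    · exact hJ e
    · exact hK e
  have hs := SG_summable hJK (G2 Γ) (Sum.elim B B) (Sum.elim m 0)
  have hs2 := eqv.summable_iff.2 hs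
  have e0 : SG (Sum.elim J K) (G2 Γ) (Sum.elim B B) (Sum.elim m 0) =
      ∑' p : (E → ℤ) × (E → ℤ), (if eqv p - Sum.elim m 0 ∈ G2 Γ then
        wt (Sum.elim J K) (Sum.elim B B) (eqv p) else 0) := (eqv.tsum_eq _).symm
  rw [e0]
  have h1 := hs2.tsum_prod
  simp only [Function.comp] at h1
  rw [h1]
  unfold SG
  refine tsum_congr fun N => ?_
  have h2 : ∀ k : E → ℤ, (eqv (N, k) - Sum.elim m 0 ∈ G2 Γ) ↔ N - m ∈ Γ := by
    intro k
    have e1 : (fun e => (eqv (N, k) - Sum.elim m 0 : E ⊕ E → ℤ) (Sum.inl e) +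
        (eqv (N, k) - Sum.elim m 0 : E ⊕ E → ℤ) (Sum.inr e)) = N - m := by
      funext e
      simp only [eqv, Equiv.coe_fn_mk, Pi.sub_apply, Sum.elim_inl, Sum.elim_inr, Pi.zero_apply]
      ring
    constructor
    · intro h
      have h' : (fun e => (eqv (N, k) - Sum.elim m 0 : E ⊕ E → ℤ) (Sum.inl e) +
        (eqv (N, k) - Sum.elim m 0 : E ⊕ E → ℤ) (Sum.inr e)) ∈ Γ := h
      rw [e1] at h'
      exact h'
    · intro h
      show (fun e => (eqv (N, k) - Sum.elim m 0 : E ⊕ E → ℤ) (Sum.inl e) +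
        (eqv (N, k) - Sum.elim m 0 : E ⊕ E → ℤ) (Sum.inr e)) ∈ Γ
      rw [e1]
      exact h
  by_cases h3 : N - m ∈ Γ
  · rw [if_pos h3]
    have e2 : ∀ k : E → ℤ, (if eqv (N, k) - Sum.elim m 0 ∈ G2 Γ then
        wt (Sum.elim J K) (Sum.elim B B) (eqv (N, k)) else 0) =
        H532.Gw J k * H532.Gw K (N - k) * Real.exp (∑ e, B e * (N e : ℝ)) := by
      intro k
      rw [if_pos ((h2 k).2 h3), wt_elim]
      unfold H532.Gw
      have e3 : ∀ e, (eqv (N, k)) (Sum.inl e) = k e := fun e => rfl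
      have e4 : ∀ e, (eqv (N, k)) (Sum.inr e) = (N - k) e := fun e => rfl
      simp only [e3, e4]
      congr 3
      funext e
      rw [Pi.sub_apply]
      congr 2
      ring
    rw [tsum_congr e2, tsum_mul_right, (H532.Gw_conv hJ hK N).tsum_eq]
    rfl
  · rw [if_neg h3]
    have e2 : ∀ k : E → ℤ, (if eqv (N, k) - Sum.elim m 0 ∈ G2 Γ then
        wt (Sum.elim J K) (Sum.elim B B) (eqv (N, k)) else 0) = 0 := fun k =>
      if_neg fun h => h3 ((h2 k).1 h)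
    rw [tsum_congr e2, tsum_zero]

/-- **The ratio increases with the couplings.** -/
theorem SG_monoJ {J J' : E → ℝ} (hJ : ∀ e, 0 ≤ J e) (hJJ : ∀ e, J e ≤ J' e)
    {Γ : AddSubgroup (E → ℤ)} (h2 : ∀ n, n + n ∈ Γ → n ∈ Γ) (B : E → ℝ) (m : E → ℤ) :
    SG J Γ B m * SG J' Γ 0 0 ≤ SG J' Γ B m * SG J Γ 0 0 := by
  set K : E → ℝ := fun e => J' e - J e with hK
  have hK0 : ∀ e, 0 ≤ K e := fun e => sub_nonneg.2 (hJJ e)
  have hJK : ∀ e, 0 ≤ (Sum.elim J K : E ⊕ E → ℝ) e := by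
    rintro (e | e)
    · exact hJ e
    · exact hK0 e
  have h := SG_mono hJK (G1_le Γ) (G1_half h2) (Sum.elim B B) (Sum.elim m 0)
  have e1 := SG_G1 J K Γ B m
  have e2 := SG_G2 hJ hK0 Γ B m
  have e3 := SG_G1 J K Γ 0 0
  have e4 := SG_G2 hJ hK0 Γ 0 0
  have z1 : (Sum.elim 0 0 : E ⊕ E → ℝ) = 0 := by
    funext e
    rcases e with e | e <;> rfl
  have z2 : (Sum.elim 0 0 : E ⊕ E → ℤ) = 0 := by
    funext e
    rcases e with e | e <;> rfl
  have z3 : (fun e => J e + K e) = J' := by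
    funext e
    simp only [hK]
    ring
  rw [z1, z2] at e3 e4
  rw [z3] at e2 e4
  rw [e1, e2, e3, e4] at h
  have hP : 0 < ∏ e, wI (K e) 0 := Finset.prod_pos fun e _ => wI_zero_pos (hK0 e)
  have h5 : (SG J Γ B m * SG J' Γ 0 0) * ∏ e, wI (K e) 0 ≤
      (SG J' Γ B m * SG J Γ 0 0) * ∏ e, wI (K e) 0 := by
    calc (SG J Γ B m * SG J' Γ 0 0) * ∏ e, wI (K e) 0 =
        SG J Γ B m * (∏ e, wI (K e) 0) * SG J' Γ 0 0 := by ring
      _ ≤ _ := h
      _ = _ := by ring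
  exact le_of_mul_le_mul_right h5 hP

end monoJ

/-! ### the same for heights -/

lemma ZBJ_nonneg {J : Bnd → ℝ} {U : Finset Z2} (hJ : ∀ e ∈ bd U, 0 ≤ J e) (m : Bnd → ℤ)
    (B : Bnd → ℝ) : 0 ≤ H130.ZBJ J U m B :=
  tsum_nonneg fun _ => mul_nonneg (Finset.prod_nonneg fun e he => wI_nonneg (hJ e he) _)
    (Real.exp_pos _).le

/-- **exponential moments increase with the couplings**, in every sector -/
theorem ZBJ_mono {J J' : Bnd → ℝ} {U : Finset Z2} (hJ : ∀ e ∈ bd U, 0 ≤ J e)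
    (hJJ : ∀ e ∈ bd U, J e ≤ J' e) (m : Bnd → ℤ) (B : Bnd → ℝ) :
    H130.ZBJ J U m B * H130.ZBJ J' U 0 0 ≤ H130.ZBJ J' U m B * H130.ZBJ J U 0 0 := by
  rw [H130.ZBJ_eq, H130.ZBJ_eq, H130.ZBJ_eq, H130.ZBJ_eq]
  exact SG_monoJ (J := fun e : ↥(bd U) => J e) (J' := fun e : ↥(bd U) => J' e)
    (fun e => hJ e.1 e.2) (fun e => hJJ e.1 e.2) (GU_half U) _ _

/-- the sum of the weights is positive -/
lemma ZBJ_pos {J : Bnd → ℝ} {U : Finset Z2} (hJ : ∀ e ∈ bd U, 0 ≤ J e) : 0 < H130.ZBJ J U 0 0 := by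
  classical
  rw [H130.ZBJ_eq]
  have hs := SG_summable (J := fun e : ↥(bd U) => J e) (fun e => hJ e.1 e.2) (GU U)
    (fun e => (0 : Bnd → ℝ) e) (fun e => (0 : Bnd → ℤ) e)
  unfold SG
  have hJ' : ∀ e : ↥(bd U), 0 ≤ J e.1 := fun e => hJ e.1 e.2
  refine hs.tsum_pos (fun n => ?_) 0 ?_
  · split_ifs
    · exact wt_nonneg hJ' _ _
    · exact le_rfl
  · have h1 : (0 : ↥(bd U) → ℤ) - (fun e : ↥(bd U) => (0 : Bnd → ℤ) e) ∈ GU U := by
      have : (0 : ↥(bd U) → ℤ) - (fun e : ↥(bd U) => (0 : Bnd → ℤ) e) = 0 := by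
        funext e
        simp
      rw [this]
      exact (GU U).zero_mem
    rw [if_pos h1]
    unfold wt
    exact mul_pos (Finset.prod_pos fun e _ => wI_zero_pos (hJ' e)) (Real.exp_pos _)

end Vale.Agent.P159.T1.H731
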